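import Mathlib

/-!
# P267 / H759: approximate eigenvectors and Floquet solutions in a weight class

`Shift V`: a complex vector space with seminorms `α j` (`j ∈ ℤ`), a shift `T` and a Montel property.
If some `v ≠ 0` has `α j v ≤ C exp (max (a j) (b j))`, there is an eigenvector `T u = ν u` with
`a ≤ log ‖ν‖ ≤ b`.
-/

open Set Filter Topology Metric

set_option linter.all false

namespace Vale.Agent.P267.H759

section Approx

variable {B : Type*} [NormedAddCommGroup B] [NormedSpace ℂ B] [CompleteSpace B] [Nontrivial B]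

/-- **Approximate eigenvectors** exist for every bounded operator. -/
theorem exists_approx (T : B →L[ℂ] B) :
    ∃ ν : ℂ, ∀ ε > 0, ∃ v : B, ‖v‖ = 1 ∧ ‖T v - ν • v‖ < ε := by
  obtain ⟨k, hk, hkr⟩ := spectrum.exists_nnnorm_eq_spectralRadius T
  have hout : ∀ μ : ℂ, ‖k‖ < ‖μ‖ → μ ∉ spectrum ℂ T := by
    intro μ hμ
    have : μ ∈ resolventSet ℂ T := by
      apply spectrum.mem_resolventSet_of_spectralRadius_lt
      rw [← hkr]
      exact_mod_cast hμ
    exact fun h => h this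
  refine ⟨k, ?_⟩
  by_contra hcon
  push Not at hcon
  obtain ⟨ε, hε, hv⟩ := hcon
  have hb : ∀ v, ε * ‖v‖ ≤ ‖T v - k • v‖ := by
    intro v
    by_cases h0 : v = 0
    · simp [h0]
    have hn : ‖v‖ ≠ 0 := norm_ne_zero_iff.2 h0
    have h1 := hv ((‖v‖⁻¹ : ℂ) • v) (by
      rw [norm_smul, norm_inv, Complex.norm_real, norm_norm, inv_mul_cancel₀ hn])
    rw [map_smul, smul_comm k, ← smul_sub, norm_smul, norm_inv, Complex.norm_real,
      norm_norm, ← div_eq_inv_mul, le_div_iff₀ (norm_pos_iff.2 h0)] at h1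
    exact h1
  -- a point outside the spectrum, close to `k`
  obtain ⟨μ, hμ1, hμ2⟩ : ∃ μ : ℂ, ‖μ - k‖ < ε / 4 ∧ ‖k‖ < ‖μ‖ := by
    by_cases hk0 : k = 0
    · refine ⟨((ε / 8 : ℝ) : ℂ), ?_, ?_⟩
      · rw [hk0, sub_zero, Complex.norm_real, Real.norm_eq_abs, abs_of_pos (by positivity)]
        linarith
      · rw [hk0, norm_zero, Complex.norm_real, Real.norm_eq_abs, abs_of_pos (by positivity)]
        positivity
    · have hkn : 0 < ‖k‖ := norm_pos_iff.2 hk0
      refine ⟨((1 + ε / (8 * ‖k‖) : ℝ) : ℂ) * k, ?_, ?_⟩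
      · have : ((1 + ε / (8 * ‖k‖) : ℝ) : ℂ) * k - k = ((ε / (8 * ‖k‖) : ℝ) : ℂ) * k := by
          push_cast; ring
        rw [this, norm_mul, Complex.norm_real, Real.norm_eq_abs, abs_of_pos (by positivity)]
        have : ε / (8 * ‖k‖) * ‖k‖ = ε / 8 := by field_simp
        rw [this]; linarith
      · rw [norm_mul, Complex.norm_real, Real.norm_eq_abs, abs_of_pos (by positivity)]
        have : 0 < ε / (8 * ‖k‖) := by positivity
        nlinarith
  have hμn := hout μ hμ2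
  rw [spectrum.notMem_iff] at hμn
  obtain ⟨u, hu⟩ := hμn
  have hu' : ∀ z : B, (u : B →L[ℂ] B) z = μ • z - T z := by
    intro z
    rw [hu, Algebra.algebraMap_eq_smul_one]
    rfl
  -- bound for the inverse
  have hinv : ‖(↑u⁻¹ : B →L[ℂ] B)‖ ≤ 2 / ε := by
    refine ContinuousLinearMap.opNorm_le_bound _ (by positivity) (fun w => ?_)
    set z : B := (↑u⁻¹ : B →L[ℂ] B) w with hz
    have hz1 : (u : B →L[ℂ] B) z = w := by
      have h3 : ((u : B →L[ℂ] B) * (↑u⁻¹ : B →L[ℂ] B)) w = w := by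
        rw [Units.mul_inv]; rfl
      exact h3
    rw [hu'] at hz1
    have h4 : T z - k • z = (μ - k) • z - w := by
      rw [← hz1, sub_smul]; abel
    have h5 : ε * ‖z‖ ≤ ε / 4 * ‖z‖ + ‖w‖ := by
      calc ε * ‖z‖ ≤ ‖T z - k • z‖ := hb z
        _ = ‖(μ - k) • z - w‖ := by rw [h4]
        _ ≤ ‖(μ - k) • z‖ + ‖w‖ := norm_sub_le _ _
        _ = ‖μ - k‖ * ‖z‖ + ‖w‖ := by rw [norm_smul]
        _ ≤ ε / 4 * ‖z‖ + ‖w‖ := by
            have := mul_le_mul_of_nonneg_right hμ1.le (norm_nonneg z)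
            linarith
    rw [div_mul_eq_mul_div, le_div_iff₀ hε]
    nlinarith [norm_nonneg z, norm_nonneg w]
  -- so `k - T` is invertible
  have hsmall : ‖(μ - k) • (↑u⁻¹ : B →L[ℂ] B)‖ < 1 := by
    calc ‖(μ - k) • (↑u⁻¹ : B →L[ℂ] B)‖ ≤ ‖μ - k‖ * ‖(↑u⁻¹ : B →L[ℂ] B)‖ :=
          ContinuousLinearMap.opNorm_smul_le _ _
      _ ≤ ε / 4 * (2 / ε) := mul_le_mul hμ1.le hinv (norm_nonneg _) (by positivity)
      _ = 1 / 2 := by field_simp; norm_num
      _ < 1 := by norm_num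
  have hu2 : IsUnit (1 - (μ - k) • (↑u⁻¹ : B →L[ℂ] B)) := isUnit_one_sub_of_norm_lt_one hsmall
  have h3 : algebraMap ℂ (B →L[ℂ] B) k - T
      = (u : B →L[ℂ] B) * (1 - (μ - k) • (↑u⁻¹ : B →L[ℂ] B)) := by
    rw [mul_sub, mul_one, mul_smul_comm, Units.mul_inv, hu]
    rw [Algebra.algebraMap_eq_smul_one, Algebra.algebraMap_eq_smul_one, sub_smul]
    abel
  rw [spectrum.mem_iff] at hk
  exact hk (h3 ▸ (u.isUnit.mul hu2))

end Approx

/-- A space with a shift and a Montel property. -/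
structure Shift (V : Type*) [AddCommGroup V] [Module ℂ V] where
  T : V ≃ₗ[ℂ] V
  α : ℤ → Seminorm ℂ V
  shift : ∀ j v, α j (T v) = α (j + 1) v
  sep : ∀ v, (∀ j, α j v = 0) → v = 0
  montel : ∀ u : ℕ → V, (∀ j, ∃ C, ∀ n, α j (u n) ≤ C) →
    ∃ w : V, ∃ l : Filter ℕ, l.NeBot ∧ l ≤ atTop ∧ ∀ j, Tendsto (fun n => α j (u n - w)) l (𝓝 0)

namespace Shift

variable {V : Type*} [AddCommGroup V] [Module ℂ V] (D : Shift V)

theorem shift_symm (j : ℤ) (v : V) : D.α j (D.T.symm v) = D.α (j - 1) v := by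
  have := D.shift (j - 1) (D.T.symm v)
  rw [LinearEquiv.apply_symm_apply, sub_add_cancel] at this
  exact this.symm

theorem shift_zpow (m : ℤ) : ∀ (j : ℤ) (v : V), D.α j ((D.T ^ m) v) = D.α (j + m) v := by
  induction m using Int.induction_on with
  | zero => intro j v; simp
  | succ i ih =>
    intro j v
    rw [zpow_add_one, LinearEquiv.mul_apply, ih, D.shift]
    congr 2; ring
  | pred i ih =>
    intro j v
    rw [zpow_sub_one, LinearEquiv.mul_apply, ih]
    have : (D.T⁻¹ : V ≃ₗ[ℂ] V) v = D.T.symm v := rfl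
    rw [this, D.shift_symm]
    congr 2; ring

/-- the space of vectors of finite `W`-norm -/
def wsub (W : ℤ → ℝ) : Submodule ℂ V where
  carrier := {v | ∃ C, ∀ j, D.α j v ≤ C * Real.exp (W j)}
  zero_mem' := ⟨0, fun j => by simp⟩
  add_mem' := by
    rintro a b ⟨A, hA⟩ ⟨B, hB⟩
    refine ⟨A + B, fun j => (map_add_le_add _ _ _).trans ?_⟩
    rw [add_mul]
    exact add_le_add (hA j) (hB j)
  smul_mem' := by
    rintro c a ⟨A, hA⟩
    refine ⟨‖c‖ * A, fun j => ?_⟩
    rw [map_smul_eq_mul, mul_assoc]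
    exact mul_le_mul_of_nonneg_left (hA j) (norm_nonneg _)

variable {D}

noncomputable instance (W : ℤ → ℝ) : Norm (D.wsub W) :=
  ⟨fun v => ⨆ j, Real.exp (-W j) * D.α j v.1⟩

theorem wnorm_def {W : ℤ → ℝ} (v : D.wsub W) : ‖v‖ = ⨆ j, Real.exp (-W j) * D.α j v.1 := rfl

theorem bdd {W : ℤ → ℝ} (v : D.wsub W) :
    BddAbove (range fun j => Real.exp (-W j) * D.α j v.1) := by
  obtain ⟨C, hC⟩ := v.2
  refine ⟨C, ?_⟩
  rintro _ ⟨j, rfl⟩
  have h := mul_le_mul_of_nonneg_left (hC j) (Real.exp_pos (-W j)).le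
  have h2 : Real.exp (-W j) * (C * Real.exp (W j)) = C := by
    rw [mul_left_comm, ← Real.exp_add, neg_add_cancel, Real.exp_zero, mul_one]
  simpa only [h2] using h

theorem le_wnorm {W : ℤ → ℝ} (v : D.wsub W) (j : ℤ) :
    D.α j v.1 ≤ ‖v‖ * Real.exp (W j) := by
  have h := le_ciSup (bdd v) j
  rw [← wnorm_def] at h
  have h2 := mul_le_mul_of_nonneg_right h (Real.exp_pos (W j)).le
  rwa [mul_right_comm, ← Real.exp_add, neg_add_cancel, Real.exp_zero, one_mul] at h2

theorem wnorm_le {W : ℤ → ℝ} (v : D.wsub W) {C : ℝ} (h : ∀ j, D.α j v.1 ≤ C * Real.exp (W j)) :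
    ‖v‖ ≤ C := by
  refine ciSup_le fun j => ?_
  have h := mul_le_mul_of_nonneg_left (h j) (Real.exp_pos (-W j)).le
  have h2 : Real.exp (-W j) * (C * Real.exp (W j)) = C := by
    rw [mul_left_comm, ← Real.exp_add, neg_add_cancel, Real.exp_zero, mul_one]
  simpa only [h2] using h

theorem wnorm_nonneg {W : ℤ → ℝ} (v : D.wsub W) : 0 ≤ ‖v‖ := by
  have h := le_wnorm v 0
  have h2 := (apply_nonneg (D.α 0) v.1).trans h
  by_contra hcon
  push Not at hcon
  have := mul_neg_of_neg_of_pos hcon (Real.exp_pos (W 0))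
  linarith

theorem core (W : ℤ → ℝ) : NormedSpace.Core ℂ (D.wsub W) where
  norm_nonneg := wnorm_nonneg
  norm_smul := by
    intro c v
    have hle : ∀ (c : ℂ) (v : D.wsub W), ‖c • v‖ ≤ ‖c‖ * ‖v‖ := by
      intro c v
      refine wnorm_le _ fun j => ?_
      have : (c • v : D.wsub W).1 = c • v.1 := rfl
      rw [this, map_smul_eq_mul, mul_assoc]
      exact mul_le_mul_of_nonneg_left (le_wnorm v j) (norm_nonneg _)
    refine le_antisymm (hle c v) ?_
    by_cases hc : c = 0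
    · rw [hc, norm_zero, zero_mul]; exact wnorm_nonneg _
    have h := hle c⁻¹ (c • v)
    rw [smul_smul, inv_mul_cancel₀ hc, one_smul, norm_inv] at h
    rw [← div_eq_inv_mul, le_div_iff₀ (norm_pos_iff.2 hc)] at h
    linarith
  norm_triangle := by
    intro v w
    refine wnorm_le _ fun j => ?_
    have : (v + w : D.wsub W).1 = v.1 + w.1 := rfl
    rw [this, add_mul]
    exact (map_add_le_add _ _ _).trans (add_le_add (le_wnorm v j) (le_wnorm w j))
  norm_eq_zero_iff := by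
    intro v
    constructor
    · intro h
      apply Subtype.ext
      apply D.sep
      intro j
      have := le_wnorm v j
      rw [h, zero_mul] at this
      exact le_antisymm this (apply_nonneg _ _)
    · rintro rfl
      refine le_antisymm (wnorm_le _ fun j => ?_) (wnorm_nonneg _)
      have : (0 : D.wsub W).1 = 0 := rfl
      rw [this, map_zero, zero_mul]

noncomputable instance (W : ℤ → ℝ) : NormedAddCommGroup (D.wsub W) :=
  NormedAddCommGroup.ofCore (core W)

noncomputable instance (W : ℤ → ℝ) : NormedSpace ℂ (D.wsub W) :=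
  NormedSpace.ofCore (core W)

instance (W : ℤ → ℝ) : CompleteSpace (D.wsub W) := by
  apply Metric.complete_of_cauchySeq_tendsto
  intro u hu
  obtain ⟨R, hR0, hR⟩ := cauchySeq_bdd hu
  have hbd : ∀ j, ∃ C, ∀ n, D.α j (u n).1 ≤ C := by
    intro j
    refine ⟨(R + ‖u 0‖) * Real.exp (W j), fun n => ?_⟩
    refine (le_wnorm (u n) j).trans (mul_le_mul_of_nonneg_right ?_ (Real.exp_pos _).le)
    have h1 := hR n 0
    rw [dist_eq_norm] at h1
    have h2 : ‖u n‖ ≤ ‖u n - u 0‖ + ‖u 0‖ := by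
      have := norm_add_le (u n - u 0) (u 0)
      rwa [sub_add_cancel] at this
    linarith
  obtain ⟨w, l, hl, hla, hw⟩ := D.montel (fun n => (u n).1) hbd
  -- key bound
  have hkey : ∀ m : ℕ, ∀ ε : ℝ, (∀ n ≥ m, ‖u m - u n‖ ≤ ε) →
      ∀ j, D.α j ((u m).1 - w) ≤ ε * Real.exp (W j) := by
    intro m ε hε j
    have h1 : ∀ᶠ n in l, D.α j ((u m).1 - w)
        ≤ ε * Real.exp (W j) + D.α j ((u n).1 - w) := by
      filter_upwards [hla (eventually_ge_atTop m)] with n hn
      have h2 : (u m).1 - w = (u m - u n).1 + ((u n).1 - w) := by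
        have : (u m - u n).1 = (u m).1 - (u n).1 := rfl
        rw [this]; abel
      rw [h2]
      refine (map_add_le_add _ _ _).trans (add_le_add ?_ le_rfl)
      refine (le_wnorm _ j).trans (mul_le_mul_of_nonneg_right ?_ (Real.exp_pos _).le)
      exact hε _ hn
    have h2 : Tendsto (fun n => ε * Real.exp (W j) + D.α j ((u n).1 - w)) l
        (𝓝 (ε * Real.exp (W j) + 0)) := (hw j).const_add _
    rw [add_zero] at h2
    exact ge_of_tendsto h2 h1
  have hwm : w ∈ D.wsub W := by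
    have h1 : (u 0).1 - w ∈ D.wsub W := by
      refine ⟨R, hkey 0 R fun n _ => ?_⟩
      have := hR 0 n
      rw [dist_eq_norm] at this
      exact this.le
    have := (D.wsub W).sub_mem (u 0).2 h1
    rwa [sub_sub_cancel] at this
  refine ⟨⟨w, hwm⟩, ?_⟩
  rw [Metric.tendsto_atTop]
  intro ε hε
  obtain ⟨N, hN⟩ := Metric.cauchySeq_iff.1 hu (ε / 2) (by positivity)
  refine ⟨N, fun n hn => ?_⟩
  rw [dist_eq_norm]
  have : ‖u n - ⟨w, hwm⟩‖ ≤ ε / 2 := by
    refine wnorm_le _ (hkey n (ε / 2) fun k hk => ?_)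
    have := hN n hn k (hn.trans hk)
    rw [dist_eq_norm] at this
    exact this.le
  linarith

/-- **Floquet solutions in a weight class**, `W` subadditive. -/
theorem exists_eig (D : Shift V) {W : ℤ → ℝ} (hW0 : W 0 = 0)
    (hW : ∀ i j, W (i + j) ≤ W i + W j) {v : V} (hv0 : v ≠ 0)
    {C : ℝ} (hv : ∀ j, D.α j v ≤ C * Real.exp (W j)) :
    ∃ ν : ℂ, ν ≠ 0 ∧ ∃ u : V, u ≠ 0 ∧ D.T u = ν • u ∧ ∀ j, D.α j u ≤ Real.exp (W j) := by
  have hTmem : ∀ x ∈ D.wsub W, (D.T : V →ₗ[ℂ] V) x ∈ D.wsub W := by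
    rintro x ⟨A, hA⟩
    refine ⟨|A| * Real.exp (W 1), fun j => ?_⟩
    change D.α j (D.T x) ≤ _
    rw [D.shift]
    calc D.α (j + 1) x ≤ A * Real.exp (W (j + 1)) := hA _
      _ ≤ |A| * Real.exp (W (j + 1)) :=
        mul_le_mul_of_nonneg_right (le_abs_self A) (Real.exp_pos _).le
      _ ≤ |A| * Real.exp (W j + W 1) := by
        refine mul_le_mul_of_nonneg_left (Real.exp_le_exp.2 (hW _ _)) (abs_nonneg _)
      _ = |A| * Real.exp (W 1) * Real.exp (W j) := by rw [Real.exp_add]; ring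
  let T0 : D.wsub W →ₗ[ℂ] D.wsub W := (D.T : V →ₗ[ℂ] V).restrict hTmem
  have hT0 : ∀ x : D.wsub W, (T0 x).1 = D.T x.1 := fun x => rfl
  let T1 : D.wsub W →L[ℂ] D.wsub W := T0.mkContinuous (Real.exp (W 1)) (by
    intro x
    refine wnorm_le _ fun j => ?_
    rw [hT0, D.shift]
    calc D.α (j + 1) x.1 ≤ ‖x‖ * Real.exp (W (j + 1)) := le_wnorm x _
      _ ≤ ‖x‖ * Real.exp (W j + W 1) :=
        mul_le_mul_of_nonneg_left (Real.exp_le_exp.2 (hW _ _)) (norm_nonneg _)
      _ = Real.exp (W 1) * ‖x‖ * Real.exp (W j) := by rw [Real.exp_add]; ring)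
  have hT1 : ∀ x : D.wsub W, (T1 x).1 = D.T x.1 := fun x => rfl
  have hnt : Nontrivial (D.wsub W) :=
    ⟨⟨⟨v, C, hv⟩, 0, fun h => hv0 (congrArg Subtype.val h)⟩⟩
  obtain ⟨ν, hν⟩ := exists_approx T1
  -- approximate eigenvectors, recentred
  have hcen : ∀ n : ℕ, ∃ u : V, (∀ j, D.α j u ≤ Real.exp (W j)) ∧ 1 / 2 ≤ D.α 0 u ∧
      ∀ j, D.α j (D.T u - ν • u) ≤ 1 / ((n : ℝ) + 1) * Real.exp (W j) := by
    intro n
    obtain ⟨x, hx1, hx2⟩ := hν (1 / ((n : ℝ) + 1)) (by positivity)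
    obtain ⟨m, hm⟩ : ∃ m, 1 / 2 < Real.exp (-W m) * D.α m x.1 := by
      apply exists_lt_of_lt_ciSup
      rw [← wnorm_def, hx1]; norm_num
    have hsc : ∀ (y : V) (j : ℤ), D.α j ((Real.exp (-W m) : ℂ) • (D.T ^ m) y)
        = Real.exp (-W m) * D.α (j + m) y := by
      intro y j
      rw [map_smul_eq_mul, D.shift_zpow, Complex.norm_real, Real.norm_eq_abs,
        abs_of_pos (Real.exp_pos _)]
    have hexp : ∀ j, Real.exp (-W m) * Real.exp (W (j + m)) ≤ Real.exp (W j) := by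
      intro j
      rw [← Real.exp_add]
      apply Real.exp_le_exp.2
      have := hW j m
      linarith
    refine ⟨(Real.exp (-W m) : ℂ) • (D.T ^ m) x.1, ?_, ?_, ?_⟩
    · intro j
      rw [hsc]
      have h1 := le_wnorm x (j + m)
      rw [hx1, one_mul] at h1
      exact (mul_le_mul_of_nonneg_left h1 (Real.exp_pos _).le).trans (hexp j)
    · rw [hsc, zero_add]; exact hm.le
    · intro j
      have h1 : D.T ((Real.exp (-W m) : ℂ) • (D.T ^ m) x.1)
          - ν • ((Real.exp (-W m) : ℂ) • (D.T ^ m) x.1)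
          = (Real.exp (-W m) : ℂ) • (D.T ^ m) (T1 x - ν • x).1 := by
        have h2 : (T1 x - ν • x).1 = D.T x.1 - ν • x.1 := rfl
        have h3 : D.T ((D.T ^ m) x.1) = (D.T ^ m) (D.T x.1) := by
          rw [← LinearEquiv.mul_apply, ← LinearEquiv.mul_apply, ← zpow_one_add, ← zpow_add_one,
            add_comm]
        rw [h2, map_smul, h3, map_sub, map_smul, smul_sub, smul_comm ν]
      rw [h1, hsc]
      have h2 := le_wnorm (T1 x - ν • x) (j + m)
      calc Real.exp (-W m) * D.α (j + m) (T1 x - ν • x).1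
          ≤ Real.exp (-W m) * (1 / ((n : ℝ) + 1) * Real.exp (W (j + m))) :=
            mul_le_mul_of_nonneg_left (h2.trans (mul_le_mul_of_nonneg_right hx2.le
              (Real.exp_pos _).le)) (Real.exp_pos _).le
        _ = 1 / ((n : ℝ) + 1) * (Real.exp (-W m) * Real.exp (W (j + m))) := by ring
        _ ≤ 1 / ((n : ℝ) + 1) * Real.exp (W j) :=
            mul_le_mul_of_nonneg_left (hexp j) (by positivity)
  choose u hu1 hu2 hu3 using hcen
  obtain ⟨w, l, hl, hla, hw⟩ := D.montel u fun j => ⟨_, fun n => hu1 n j⟩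
  have hw0 : w ≠ 0 := by
    rintro rfl
    have h1 := hw 0
    simp only [sub_zero] at h1
    have h2 := ge_of_tendsto h1 (Eventually.of_forall fun n => hu2 n)
    norm_num at h2
  have hTw : D.T w = ν • w := by
    rw [← sub_eq_zero]
    apply D.sep
    intro j
    have hle : ∀ n, D.α j (D.T w - ν • w) ≤ D.α (j + 1) (u n - w)
        + 1 / ((n : ℝ) + 1) * Real.exp (W j) + ‖ν‖ * D.α j (u n - w) := by
      intro n
      have h1 : D.T w - ν • w = (D.T (u n) - ν • u n) - D.T (u n - w)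
          + ν • (u n - w) := by
        rw [map_sub, smul_sub]; abel
      rw [h1]
      refine (map_add_le_add _ _ _).trans (add_le_add ?_ (map_smul_eq_mul _ _ _).le)
      refine (map_sub_le_add _ _ _).trans ?_
      rw [D.shift, add_comm]
      exact add_le_add le_rfl (hu3 _ _)
    have hlim : Tendsto (fun n : ℕ => D.α (j + 1) (u n - w)
        + 1 / ((n : ℝ) + 1) * Real.exp (W j) + ‖ν‖ * D.α j (u n - w)) l
        (𝓝 (0 + 0 * Real.exp (W j) + ‖ν‖ * 0)) := by
      refine ((hw (j + 1)).add (Tendsto.mul_const _ ?_)).add ((hw j).const_mul _)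
      exact (tendsto_one_div_add_atTop_nhds_zero_nat (𝕜 := ℝ)).mono_left hla
    rw [zero_mul, mul_zero, add_zero, add_zero] at hlim
    exact le_antisymm (ge_of_tendsto' hlim hle) (apply_nonneg _ _)
  refine ⟨ν, ?_, w, hw0, hTw, ?_⟩
  · rintro rfl
    rw [zero_smul] at hTw
    exact hw0 (by simpa using hTw)
  · intro j
    have hle : ∀ n, D.α j w ≤ Real.exp (W j) + D.α j (u n - w) := by
      intro n
      have h1 : w = u n - (u n - w) := by abel
      calc D.α j w = D.α j (u n - (u n - w)) := by rw [← h1]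
        _ ≤ D.α j (u n) + D.α j (u n - w) := map_sub_le_add _ _ _
        _ ≤ _ := add_le_add (hu1 _ _) le_rfl
    have hlim := (hw j).const_add (Real.exp (W j))
    rw [add_zero] at hlim
    exact ge_of_tendsto' hlim hle

theorem eig_zpow (D : Shift V) {ν : ℂ} {u : V} (hu : D.T u = ν • u) (hν : ν ≠ 0) (j : ℤ) :
    D.α j u = ‖ν‖ ^ j * D.α 0 u := by
  have h : ∀ j : ℤ, (D.T ^ j) u = ν ^ j • u := by
    intro j
    induction j using Int.induction_on with
    | zero => simp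
    | succ i ih =>
      rw [zpow_add_one, LinearEquiv.mul_apply, hu, map_smul, ih, smul_smul, zpow_add_one₀ hν,
        mul_comm]
    | pred i ih =>
      rw [zpow_sub_one, LinearEquiv.mul_apply]
      have h1 : (D.T⁻¹ : V ≃ₗ[ℂ] V) u = D.T.symm u := rfl
      have h2 : D.T.symm u = ν⁻¹ • u := by
        rw [LinearEquiv.symm_apply_eq, map_smul, hu, smul_smul, inv_mul_cancel₀ hν, one_smul]
      rw [h1, h2, map_smul, ih, smul_smul, zpow_sub_one₀ hν, mul_comm]
  have h2 := D.shift_zpow j 0 u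
  rw [h, map_smul_eq_mul, zero_add, norm_zpow] at h2
  exact h2.symm

/-- **Floquet solutions in a weight class**: slopes between `a` and `b`. -/
theorem exists_floquet (D : Shift V) {a b : ℝ} (hab : a ≤ b) {v : V} (hv0 : v ≠ 0)
    {C : ℝ} (hv : ∀ j : ℤ, D.α j v ≤ C * Real.exp (max (a * j) (b * j))) :
    ∃ ν : ℂ, ν ≠ 0 ∧ a ≤ Real.log ‖ν‖ ∧ Real.log ‖ν‖ ≤ b ∧ ∃ u : V, u ≠ 0 ∧ D.T u = ν • u := by
  obtain ⟨ν, hν, u, hu0, hu, hub⟩ := D.exists_eig (W := fun j => max (a * j) (b * j)) (by simp)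
    (by
      intro i j
      push_cast
      rw [mul_add, mul_add]
      exact max_le (add_le_add (le_max_left _ _) (le_max_left _ _))
        (add_le_add (le_max_right _ _) (le_max_right _ _))) hv0 hv
  have hα0 : 0 < D.α 0 u := by
    refine lt_of_le_of_ne (apply_nonneg _ _) fun h => hu0 (D.sep u fun j => ?_)
    rw [D.eig_zpow hu hν, ← h, mul_zero]
  have hνn : 0 < ‖ν‖ := norm_pos_iff.2 hν
  have hlog : ∀ j : ℤ, j * Real.log ‖ν‖ + Real.log (D.α 0 u) ≤ max (a * j) (b * j) := by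
    intro j
    have h1 := hub j
    rw [D.eig_zpow hu hν] at h1
    have h2 := Real.log_le_log (by positivity) h1
    rwa [Real.log_mul (by positivity) hα0.ne', Real.log_zpow, Real.log_exp] at h2
  refine ⟨ν, hν, ?_, ?_, u, hu0, hu⟩
  · by_contra hcon
    push Not at hcon
    obtain ⟨n, hn⟩ := exists_nat_gt (-Real.log (D.α 0 u) / (a - Real.log ‖ν‖))
    have h1 := hlog (-(n : ℤ))
    have h2 : max (a * ((-(n : ℤ) : ℤ) : ℝ)) (b * ((-(n : ℤ) : ℤ) : ℝ)) = a * (-(n : ℝ)) := by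
      push_cast
      apply max_eq_left
      nlinarith [Nat.cast_nonneg (α := ℝ) n]
    rw [h2] at h1
    push_cast at h1
    rw [div_lt_iff₀ (by linarith)] at hn
    nlinarith
  · by_contra hcon
    push Not at hcon
    obtain ⟨n, hn⟩ := exists_nat_gt (-Real.log (D.α 0 u) / (Real.log ‖ν‖ - b))
    have h1 := hlog (n : ℤ)
    have h2 : max (a * (((n : ℤ) : ℤ) : ℝ)) (b * (((n : ℤ) : ℤ) : ℝ)) = b * (n : ℝ) := by
      push_cast
      apply max_eq_right
      nlinarith [Nat.cast_nonneg (α := ℝ) n]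
    rw [h2] at h1
    push_cast at h1
    rw [div_lt_iff₀ (by linarith)] at hn
    nlinarith

end Shift

end Vale.Agent.P267.H759
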