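import Mathlib.Topology.Connected.LocallyConnected
import Mathlib.Topology.Homeomorph.Lemmas
import Mathlib.Algebra.Order.Round
import Mathlib.Topology.Algebra.Order.Archimedean
import Mathlib.Topology.Order.IntermediateValue
import Mathlib.Analysis.Real.Pi.Bounds

/-!
# P267 / H759: connectedness of the inner end
-/

set_option linter.unusedVariables false

open scoped Topology
open Set Filter

namespace Vale.Agent.P267.H759

/-- In a connected, locally connected space with a continuous proper function, every compact set is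
contained in a preconnected set on which the function is bounded. -/
theorem exists_conn_bdd {M : Type*} [TopologicalSpace M] [LocallyConnectedSpace M]
    [PreconnectedSpace M] {f : M → ℝ} (hf : Continuous f) (x₀ : M) {K : Set M} (hK : IsCompact K) :
    ∃ k : ℝ, ∃ V : Set M, IsOpen V ∧ IsPreconnected V ∧ x₀ ∈ V ∧ K ⊆ V ∧ ∀ x ∈ V, f x < k := by
  set S : ℕ → Set M := fun k => {x | |f x| < |f x₀| + 1 + k} with hS
  have hSo : ∀ k, IsOpen (S k) := fun k => isOpen_lt hf.abs continuous_const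
  have hx₀ : ∀ k, x₀ ∈ S k := fun k => by
    show |f x₀| < |f x₀| + 1 + k
    have : (0 : ℝ) ≤ k := Nat.cast_nonneg k
    linarith
  have hSm : ∀ {k l}, k ≤ l → S k ⊆ S l := by
    intro k l hkl x hx
    have h1 : |f x| < |f x₀| + 1 + k := hx
    have h2 : (k : ℝ) ≤ l := by exact_mod_cast hkl
    show |f x| < |f x₀| + 1 + l
    linarith
  set V : ℕ → Set M := fun k => connectedComponentIn (S k) x₀ with hV
  have hVo : ∀ k, IsOpen (V k) := fun k => (hSo k).connectedComponentIn
  have hVm : ∀ {k l}, k ≤ l → V k ⊆ V l := by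
    intro k l hkl
    exact connectedComponentIn_mono x₀ (hSm hkl)
  have hcov : (⋃ k, V k) = univ := by
    have hcl : IsClopen (⋃ k, V k) := by
      refine ⟨isClosed_of_closure_subset fun x hx => ?_, isOpen_iUnion hVo⟩
      obtain ⟨k, hk⟩ := exists_nat_gt (|f x| - |f x₀| - 1)
      have hxk : x ∈ S k := by
        show |f x| < |f x₀| + 1 + k
        linarith
      obtain ⟨N, hNS, hNo, hxN, hNc⟩ :=
        locallyConnectedSpace_iff_subsets_isOpen_isConnected.1 inferInstance x (S k)
          ((hSo k).mem_nhds hxk)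
      obtain ⟨y, hyN, hy⟩ := mem_closure_iff.1 hx N hNo hxN
      obtain ⟨l, hl⟩ := mem_iUnion.1 hy
      set j := max k l with hj
      have h1 : y ∈ V j := hVm (le_max_right k l) hl
      have h2 : N ⊆ S j := hNS.trans (hSm (le_max_left k l))
      have h3 : N ∪ V j ⊆ V j := by
        refine IsPreconnected.subset_connectedComponentIn ?_ (Or.inr (mem_connectedComponentIn
          (hx₀ j))) (union_subset h2 (connectedComponentIn_subset _ _))
        exact hNc.isPreconnected.union y hyN h1 isPreconnected_connectedComponentIn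
      exact mem_iUnion.2 ⟨j, h3 (Or.inl hxN)⟩
    have hne : (⋃ k, V k).Nonempty := ⟨x₀, mem_iUnion.2 ⟨0, mem_connectedComponentIn (hx₀ 0)⟩⟩
    exact IsClopen.eq_univ hcl hne
  obtain ⟨k, hk⟩ := hK.elim_directed_cover V hVo (by rw [hcov]; exact subset_univ K)
    (directed_of_isDirected_le fun k l hkl => hVm hkl)
  refine ⟨|f x₀| + 1 + k, V k, hVo k, isPreconnected_connectedComponentIn,
    mem_connectedComponentIn (hx₀ k), hk, fun x hx => ?_⟩
  have h0 : x ∈ S k := connectedComponentIn_subset (S k) x₀ hx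
  have h1 : |f x| < |f x₀| + 1 + k := h0
  exact (le_abs_self _).trans_lt h1

/-- The inner end is connected. -/
theorem end_conn {M : Type*} [TopologicalSpace M] [LocallyConnectedSpace M]
    [PreconnectedSpace M] {f : M → ℝ} (hf : Continuous f)
    (hp : ∀ a b, IsCompact (f ⁻¹' Icc a b)) (γ : M ≃ₜ M) (hγ : ∀ x, f (γ x) = f x + 1) (x₀ : M)
    (a : ℝ) : ∃ b, ∃ Q : Set M, IsPreconnected Q ∧ {x | f x < b} ⊆ Q ∧ Q ⊆ {x | f x < a} := by
  have hγs : ∀ x, f (γ.symm x) = f x - 1 := by
    intro x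
    have := hγ (γ.symm x)
    rw [γ.apply_symm_apply] at this
    linarith
  have hγk : ∀ (j : ℕ) x, f (γ.symm^[j] x) = f x - j := by
    intro j
    induction j with
    | zero => intro x; simp
    | succ j ih =>
      intro x
      rw [Function.iterate_succ_apply, ih, hγs]
      push_cast
      ring
  have hgk : ∀ (j : ℕ) x, f (γ^[j] x) = f x + j := by
    intro j
    induction j with
    | zero => intro x; simp
    | succ j ih =>
      intro x
      rw [Function.iterate_succ_apply, ih, hγ]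
      push_cast
      ring
  have hinv : ∀ (j : ℕ) x, γ.symm^[j] (γ^[j] x) = x := by
    intro j
    exact Function.LeftInverse.iterate γ.symm_apply_apply j
  have hcont : ∀ j : ℕ, Continuous (γ.symm^[j]) := fun j => γ.symm.continuous.iterate j
  obtain ⟨k, V, hVo, hVc, hxV, hKV, hVk⟩ := exists_conn_bdd hf x₀
    (K := f ⁻¹' Icc 0 1 ∪ {γ.symm x₀}) ((hp 0 1).union isCompact_singleton)
  obtain ⟨j₀, hj₀⟩ := exists_nat_gt (k - a)
  set Q : ℕ → Set M := fun i => γ.symm^[j₀ + i] '' V with hQ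
  refine ⟨-(j₀ : ℝ) + 1, ⋃ i, Q i, ?_, ?_, ?_⟩
  · refine IsPreconnected.iUnion_of_chain (fun i => hVc.image _ (hcont _).continuousOn) fun i => ?_
    refine ⟨γ.symm^[j₀ + i] (γ.symm x₀), ⟨γ.symm x₀, hKV (Or.inr rfl), rfl⟩, ⟨x₀, hxV, ?_⟩⟩
    show γ.symm^[j₀ + (i + 1)] x₀ = γ.symm^[j₀ + i] (γ.symm x₀)
    rw [← add_assoc, Function.iterate_succ_apply]
  · intro x hx
    have hx' : f x < -(j₀ : ℝ) + 1 := hx
    have h1 : (0 : ℝ) ≤ j₀ := Nat.cast_nonneg _
    -- the integer `j`
    set j : ℤ := ⌈-f x⌉ with hj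
    have h2 : -f x ≤ j := Int.le_ceil _
    have h3 : (j : ℝ) < -f x + 1 := Int.ceil_lt_add_one _
    have h4 : (j₀ : ℤ) ≤ j := by
      have : (j₀ : ℝ) - 1 < j := by linarith
      have h5 : ((j₀ : ℤ) : ℝ) - 1 < (j : ℝ) := by exact_mod_cast this
      have h6 : (j₀ : ℤ) - 1 < j := by exact_mod_cast h5
      linarith
    obtain ⟨i, hi⟩ := Int.le.dest h4
    have h7 : ((j₀ + i : ℕ) : ℝ) = (j : ℝ) := by
      rw [← hi]
      push_cast
      ring
    refine mem_iUnion.2 ⟨i, γ^[j₀ + i] x, hKV (Or.inl ?_), hinv _ x⟩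
    rw [mem_preimage, hgk, h7]
    constructor
    · linarith
    · linarith
  · refine iUnion_subset fun i => ?_
    rintro _ ⟨x, hx, rfl⟩
    show f (γ.symm^[j₀ + i] x) < a
    rw [hγk]
    have h1 := hVk x hx
    have h2 : (0 : ℝ) ≤ i := Nat.cast_nonneg _
    push_cast
    linarith

/-- The inner end together with a closed set all of whose points are joined to the end. -/
theorem end_conn_union {M : Type*} [TopologicalSpace M] [LocallyConnectedSpace M]
    [PreconnectedSpace M] {f : M → ℝ} (hf : Continuous f)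
    (hp : ∀ a b, IsCompact (f ⁻¹' Icc a b)) (γ : M ≃ₜ M) (hγ : ∀ x, f (γ x) = f x + 1) (x₀ : M)
    {Z : Set M} (hZ : ∀ y ∈ Z, ∀ R : ℝ, ∃ P ⊆ Z, IsPreconnected P ∧ y ∈ P ∧ ∃ z ∈ P, f z ≤ R)
    (a : ℝ) : ∃ b, ∃ Q : Set M, IsPreconnected Q ∧ Z ∪ {x | f x < b} ⊆ Q ∧
      Q ⊆ Z ∪ {x | f x < a} := by
  obtain ⟨b, Q, hQ, hbQ, hQa⟩ := end_conn hf hp γ hγ x₀ a
  refine ⟨b, Z ∪ Q, ?_, union_subset_union_right _ hbQ, union_subset_union_right _ hQa⟩
  -- a point of `Q`
  have hγs : ∀ x, f (γ.symm x) = f x - 1 := by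
    intro x
    have := hγ (γ.symm x)
    rw [γ.apply_symm_apply] at this
    linarith
  have hγk : ∀ (j : ℕ) x, f (γ.symm^[j] x) = f x - j := by
    intro j
    induction j with
    | zero => intro x; simp
    | succ j ih =>
      intro x
      rw [Function.iterate_succ_apply, ih, hγs]
      push_cast
      ring
  obtain ⟨j, hj⟩ := exists_nat_gt (f x₀ - b)
  have hq : γ.symm^[j] x₀ ∈ Q := hbQ (by
    show f (γ.symm^[j] x₀) < b
    rw [hγk]
    linarith)
  refine isPreconnected_of_forall (γ.symm^[j] x₀) fun y hy => ?_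
  rcases hy with hy | hy
  · obtain ⟨P, hPZ, hP, hyP, z, hzP, hz⟩ := hZ y hy (b - 1)
    have hzQ : z ∈ Q := hbQ (by
      show f z < b
      linarith)
    exact ⟨P ∪ Q, union_subset_union_left _ hPZ, Or.inr hq, Or.inl hyP, hP.union z hzP hzQ hQ⟩
  · exact ⟨Q, subset_union_right, hq, hy, hQ⟩

end Vale.Agent.P267.H759
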