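import Mathlib

/-!
# P267 / H759: locally uniform limits of holomorphic functions on complex manifolds; equicontinuity;
Montel along an ultrafilter.
-/

open Set Filter Topology Metric
open scoped Manifold

set_option linter.all false

namespace Vale.Agent.P267.H759

section Flat

variable {E : Type*} [NormedAddCommGroup E] [NormedSpace ℂ E]
  {F : Type*} [NormedAddCommGroup F] [NormedSpace ℂ F]

/-- Cauchy estimate in any dimension. -/
theorem cauchy_est {u : E → F} {x : E} {R C : ℝ} (hR : 0 < R)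
    (hd : DifferentiableOn ℂ u (ball x R)) (hC : ∀ y ∈ ball x R, ‖u y‖ ≤ C) :
    ‖fderiv ℂ u x‖ ≤ 2 * C / R := by
  refine Complex.norm_fderiv_le_div_of_mapsTo_ball hd (fun y hy => ?_) hR
  rw [mem_closedBall, dist_eq_norm]
  have h1 := norm_sub_le (u y) (u x)
  have h2 := hC y hy
  have h3 := hC x (mem_ball_self hR)
  linarith

theorem lip_est {u : E → F} {x : E} {R C : ℝ}
    (hd : DifferentiableOn ℂ u (ball x R)) (hC : ∀ y ∈ ball x R, ‖u y‖ ≤ C) {y : E}
    (hy : y ∈ ball x R) : ‖u y - u x‖ ≤ 2 * C / R * ‖y - x‖ := by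
  have hR : 0 < R := by
    rw [mem_ball] at hy
    exact dist_nonneg.trans_lt hy
  rw [← dist_eq_norm, ← dist_eq_norm]
  refine Complex.dist_le_div_mul_dist_of_mapsTo_ball hd (fun y hy => ?_) hy
  rw [mem_closedBall, dist_eq_norm]
  have h1 := norm_sub_le (u y) (u x)
  have h2 := hC y hy
  have h3 := hC x (mem_ball_self hR)
  linarith

/-- Locally uniform limits of holomorphic functions are holomorphic, in any dimension. -/
theorem limit_hol [CompleteSpace F] {ι : Type*} {l : Filter ι} [l.NeBot] {u : ι → E → F}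
    {w : E → F} {s : Set E}
    (hs : IsOpen s) (hu : ∀ n, DifferentiableOn ℂ (u n) s)
    (h : TendstoUniformlyOn u w l s) : DifferentiableOn ℂ w s := by
  intro x hx
  obtain ⟨r, hr, hrs⟩ := Metric.isOpen_iff.1 hs x hx
  set ρ : ℝ := r / 2 with hρ
  have hρ0 : 0 < ρ := by positivity
  have hball : ∀ y ∈ ball x ρ, ball y ρ ⊆ s := by
    intro y hy z hz
    apply hrs
    rw [mem_ball] at *
    have := dist_triangle z y x
    linarith
  have hC : UniformCauchySeqOn (fun n y => fderiv ℂ (u n) y) l (ball x ρ) := by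
    have hC0 := h.uniformCauchySeqOn
    intro U hU
    obtain ⟨ε, hε, hεU⟩ := Metric.mem_uniformity_dist.1 hU
    have h1 := hC0 _ (Metric.dist_mem_uniformity (show 0 < ε * ρ / 4 by positivity))
    filter_upwards [h1] with m hm y hy
    apply hεU
    have hsub : ball y ρ ⊆ s := hball y hy
    have hys : y ∈ s := hsub (mem_ball_self hρ0)
    have hdm := (hu m.1).mono hsub
    have hdn := (hu m.2).mono hsub
    have h2 : fderiv ℂ (u m.1) y - fderiv ℂ (u m.2) y = fderiv ℂ (fun z => u m.1 z - u m.2 z) y := by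
      rw [fderiv_fun_sub ((hu m.1).differentiableAt (hs.mem_nhds hys))
        ((hu m.2).differentiableAt (hs.mem_nhds hys))]
    rw [dist_eq_norm, h2]
    have h3 := cauchy_est (C := ε * ρ / 4) hρ0 (hdm.sub hdn) (fun z hz => by
      have := hm z (hsub hz)
      change dist (u m.1 z) (u m.2 z) < _ at this
      rw [dist_eq_norm] at this
      exact this.le)
    calc _ ≤ 2 * (ε * ρ / 4) / ρ := h3
      _ = ε / 2 := by field_simp; ring
      _ < ε := by linarith
  have hpt : ∀ y ∈ ball x ρ, ∃ g : E →L[ℂ] F, Tendsto (fun n => fderiv ℂ (u n) y) l (𝓝 g) :=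
    fun y hy => CompleteSpace.complete (hC.cauchy_map hy)
  choose! g hg using hpt
  have hg' : TendstoUniformlyOn (fun n y => fderiv ℂ (u n) y) g l (ball x ρ) :=
    hC.tendstoUniformlyOn_of_tendsto hg
  have hxs : ball x ρ ⊆ s := hball x (mem_ball_self hρ0)
  have hfin : HasFDerivAt w (g x) x :=
    hasFDerivAt_of_tendstoUniformlyOn isOpen_ball hg'
      (fun n y hy => ((hu n).differentiableAt (hs.mem_nhds (hxs hy))).hasFDerivAt)
      (fun y hy => h.tendsto_at (hxs hy)) (mem_ball_self hρ0)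
  exact hfin.differentiableAt.differentiableWithinAt

end Flat

section Mfd

variable {E : Type*} [NormedAddCommGroup E] [NormedSpace ℂ E]
  {M : Type*} [TopologicalSpace M] [ChartedSpace E M] [IsManifold 𝓘(ℂ, E) 1 M]
  {F : Type*} [NormedAddCommGroup F] [NormedSpace ℂ F]

/-- reading a holomorphic function in a preferred chart -/
theorem diffOn_chart {u : M → F} (hu : MDifferentiable 𝓘(ℂ, E) 𝓘(ℂ, F) u) (x : M) :
    DifferentiableOn ℂ (u ∘ (chartAt E x).symm) (chartAt E x).target := by
  have h1 : MDifferentiableOn 𝓘(ℂ, E) 𝓘(ℂ, F) (u ∘ (chartAt E x).symm) (chartAt E x).target :=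
    hu.comp_mdifferentiableOn (mdifferentiableOn_atlas_symm (chart_mem_atlas E x))
  exact h1.differentiableOn

theorem mdiff_of_chart {u : M → F} (x : M)
    {s : Set E} (hs : IsOpen s) (hxs : chartAt E x x ∈ s) (hst : s ⊆ (chartAt E x).target)
    (hu : DifferentiableOn ℂ (u ∘ (chartAt E x).symm) s) :
    MDifferentiableAt 𝓘(ℂ, E) 𝓘(ℂ, F) u x := by
  have h1 : DifferentiableAt ℂ (u ∘ (chartAt E x).symm) (chartAt E x x) :=
    hu.differentiableAt (hs.mem_nhds hxs)
  have h2 : MDifferentiableAt 𝓘(ℂ, E) 𝓘(ℂ, F) ((u ∘ (chartAt E x).symm) ∘ (chartAt E x)) x :=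
    h1.mdifferentiableAt.comp x (mdifferentiableAt_atlas (chart_mem_atlas E x) (mem_chart_source E x))
  refine h2.congr_of_eventuallyEq ?_
  filter_upwards [(chartAt E x).open_source.mem_nhds (mem_chart_source E x)] with y hy
  simp only [Function.comp_apply, (chartAt E x).left_inv hy]

/-- Equicontinuity of locally bounded families of holomorphic functions. -/
theorem equicont {ι : Type*} {u : ι → M → F} (hu : ∀ n, MDifferentiable 𝓘(ℂ, E) 𝓘(ℂ, F) (u n))
    {x : M} {C : ℝ} {U : Set M} (hU : U ∈ 𝓝 x) (hC : ∀ n, ∀ y ∈ U, ‖u n y‖ ≤ C) {ε : ℝ}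
    (hε : 0 < ε) : ∃ V ∈ 𝓝 x, ∀ n, ∀ y ∈ V, ‖u n y - u n x‖ ≤ ε := by
  set e := chartAt E x with he
  have h1 : e.symm ⁻¹' U ∩ e.target ∈ 𝓝 (e x) := by
    refine inter_mem ?_ (e.open_target.mem_nhds (mem_chart_target E x))
    apply e.continuousAt_symm (mem_chart_target E x)
    rwa [e.left_inv (mem_chart_source E x)]
  obtain ⟨R, hR, hRs⟩ := Metric.mem_nhds_iff.1 h1
  have hC0 : 0 ≤ |C| := abs_nonneg _
  set δ : ℝ := min R (ε * R / (2 * |C| + 1)) with hδ
  have hδ0 : 0 < δ := lt_min hR (by positivity)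
  refine ⟨e.source ∩ e ⁻¹' ball (e x) δ, ?_, ?_⟩
  · refine inter_mem (e.open_source.mem_nhds (mem_chart_source E x)) ?_
    exact (e.continuousAt (mem_chart_source E x)).preimage_mem_nhds (ball_mem_nhds _ hδ0)
  · rintro n y ⟨hy1, hy2⟩
    have hy3 : e y ∈ ball (e x) R := ball_subset_ball (min_le_left _ _) hy2
    have h2 := lip_est (u := u n ∘ e.symm) (x := e x) (R := R) (C := |C|)
      ((diffOn_chart (hu n) x).mono fun z hz => (hRs hz).2)
      (fun z hz => (hC n _ (hRs hz).1).trans (le_abs_self C)) hy3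
    simp only [Function.comp_apply, e.left_inv hy1, e.left_inv (mem_chart_source E x)] at h2
    refine h2.trans ?_
    rw [mem_preimage, mem_ball, dist_eq_norm] at hy2
    have h3 : ‖e y - e x‖ ≤ ε * R / (2 * |C| + 1) := hy2.le.trans (min_le_right _ _)
    calc 2 * |C| / R * ‖e y - e x‖ ≤ 2 * |C| / R * (ε * R / (2 * |C| + 1)) :=
          mul_le_mul_of_nonneg_left h3 (by positivity)
      _ = ε * (2 * |C| / (2 * |C| + 1)) := by field_simp
      _ ≤ ε * 1 := by
          refine mul_le_mul_of_nonneg_left ?_ hε.le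
          rw [div_le_one (by positivity)]; linarith
      _ = ε := mul_one ε

/-- **Montel along an ultrafilter**: a locally bounded family of holomorphic functions converges
locally uniformly to a holomorphic function along every ultrafilter. -/
theorem montel_ultra [FiniteDimensional ℂ E] [ProperSpace F] {ι : Type*} (l : Ultrafilter ι) {u : ι → M → F}
    (hu : ∀ n, MDifferentiable 𝓘(ℂ, E) 𝓘(ℂ, F) (u n))
    (hb : ∀ x, ∃ U ∈ 𝓝 x, ∃ C : ℝ, ∀ n, ∀ y ∈ U, ‖u n y‖ ≤ C) :
    ∃ w : M → F, MDifferentiable 𝓘(ℂ, E) 𝓘(ℂ, F) w ∧ TendstoLocallyUniformly u w l := by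
  have hpt : ∀ x, ∃ c : F, Tendsto (fun n => u n x) l (𝓝 c) := by
    intro x
    obtain ⟨U, hU, C, hC⟩ := hb x
    have hcpt : IsCompact (closedBall (0 : F) C) := isCompact_closedBall _ _
    have hmem : closedBall (0 : F) C ∈ (l.map (fun n => u n x) : Ultrafilter F) := by
      rw [Ultrafilter.mem_map]
      refine Filter.univ_mem' fun n => ?_
      rw [mem_preimage, mem_closedBall, dist_zero_right]
      exact hC n x (mem_of_mem_nhds hU)
    obtain ⟨c, -, hc⟩ := isCompact_iff_ultrafilter_le_nhds.1 hcpt (l.map (fun n => u n x))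
      (le_principal_iff.2 hmem)
    exact ⟨c, hc⟩
  choose w hw using hpt
  have hloc : ∀ x, ∀ ε > 0, ∃ V ∈ 𝓝 x, ∀ᶠ n in (l : Filter ι), ∀ y ∈ V, dist (w y) (u n y) < ε := by
    intro x ε hε
    obtain ⟨U, hU, C, hC⟩ := hb x
    obtain ⟨V, hV, hVe⟩ := equicont hu hU hC (show 0 < ε / 4 by positivity)
    refine ⟨V, hV, ?_⟩
    have h1 : ∀ᶠ n in (l : Filter ι), dist (u n x) (w x) < ε / 4 :=
      Metric.tendsto_nhds.1 (hw x) _ (by positivity)
    have hwV : ∀ y ∈ V, ‖w y - w x‖ ≤ ε / 4 := by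
      intro y hy
      have h2 : Tendsto (fun n => ‖u n y - u n x‖) l (𝓝 ‖w y - w x‖) := ((hw y).sub (hw x)).norm
      exact le_of_tendsto h2 (Eventually.of_forall fun n => hVe n y hy)
    filter_upwards [h1] with n hn y hy
    rw [dist_eq_norm] at *
    have h3 : w y - u n y = (w y - w x) - (u n y - u n x) - (u n x - w x) := by abel
    rw [h3]
    have h4 := norm_sub_le ((w y - w x) - (u n y - u n x)) (u n x - w x)
    have h5 := norm_sub_le (w y - w x) (u n y - u n x)
    have h6 := hwV y hy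
    have h7 := hVe n y hy
    linarith
  have htlu : TendstoLocallyUniformly u w l := by
    intro U hU x
    obtain ⟨ε, hε, hεU⟩ := Metric.mem_uniformity_dist.1 hU
    obtain ⟨V, hV, h⟩ := hloc x ε hε
    refine ⟨V, hV, ?_⟩
    filter_upwards [h] with n hn y hy
    exact hεU (hn y hy)
  refine ⟨w, fun x => ?_, htlu⟩
  set e := chartAt E x with he
  have hbz : TendstoLocallyUniformlyOn (fun n => u n ∘ e.symm) (w ∘ e.symm) l e.target :=
    htlu.tendstoLocallyUniformlyOn.comp e.symm (mapsTo_univ _ _) e.continuousOn_symm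
  obtain ⟨R, hR, hRs⟩ := Metric.nhds_basis_closedBall.mem_iff.1
    (e.open_target.mem_nhds (mem_chart_target E x))
  have : ProperSpace E := FiniteDimensional.proper ℂ E
  have hK := (tendstoLocallyUniformlyOn_iff_forall_isCompact e.open_target).1 hbz
    _ hRs (isCompact_closedBall _ _)
  have hsub : ball (e x) R ⊆ e.target := ball_subset_closedBall.trans hRs
  refine mdiff_of_chart x isOpen_ball (mem_ball_self hR) hsub ?_
  exact limit_hol isOpen_ball (fun n => (diffOn_chart (hu n) x).mono hsub)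
    (hK.mono ball_subset_closedBall)

end Mfd

end Vale.Agent.P267.H759
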