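import Vale.Agent.P267.H759.Abs
import Vale.Agent.P267.H759.Lim

/-!
# P267 / H759: holomorphic functions on a `ℤ`-cover with compact quotient

`Per E M`: a biholomorphism `γ` of `M`, a compact `K` whose translates cover `M`, a continuous `f` with
`f ∘ γ = f + 1`.  Floquet solutions in a weight class; roots of modulus one are trivial.
-/

open Set Filter Topology Metric
open scoped Manifold

set_option linter.all false

namespace Vale.Agent.P267.H759

/-- holomorphic functions -/
def hol (E M : Type*) [NormedAddCommGroup E] [NormedSpace ℂ E] [TopologicalSpace M]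
    [ChartedSpace E M] : Submodule ℂ (M → ℂ) where
  carrier := {h | MDifferentiable 𝓘(ℂ, E) 𝓘(ℂ, ℂ) h}
  zero_mem' := mdifferentiable_const
  add_mem' := fun ha hb => ha.add hb
  smul_mem' := fun c _ ha => ha.const_smul c

/-- data of an infinite cyclic covering with compact quotient -/
structure Per (E M : Type*) [NormedAddCommGroup E] [NormedSpace ℂ E] [TopologicalSpace M]
    [ChartedSpace E M] where
  γ : M ≃ₜ M
  hγ : MDifferentiable 𝓘(ℂ, E) 𝓘(ℂ, E) γ
  hγs : MDifferentiable 𝓘(ℂ, E) 𝓘(ℂ, E) γ.symm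
  K : Set M
  cpt : IsCompact K
  cover : ∀ x, ∃ k : ℤ, ∃ y ∈ K, (γ ^ k) y = x
  f : M → ℝ
  hf : Continuous f
  hfγ : ∀ x, f (γ x) = f x + 1

section Sup

variable {M : Type*} [TopologicalSpace M] {K : Set M}

/-- sup norm over a compact set -/
noncomputable def supK (K : Set M) (g : M → ℂ) : ℝ := ⨆ y : K, ‖g y‖

theorem supK_bdd (hK : IsCompact K) {g : M → ℂ} (hg : Continuous g) :
    BddAbove (range fun y : K => ‖g y‖) := by
  obtain ⟨C, hC⟩ := hK.exists_bound_of_continuousOn hg.continuousOn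
  exact ⟨C, by rintro _ ⟨y, rfl⟩; exact hC y y.2⟩

theorem le_supK (hK : IsCompact K) {g : M → ℂ} (hg : Continuous g) {y : M} (hy : y ∈ K) :
    ‖g y‖ ≤ supK K g := le_ciSup (supK_bdd hK hg) ⟨y, hy⟩

theorem supK_le {g : M → ℂ} {C : ℝ} (h : ∀ y ∈ K, ‖g y‖ ≤ C) (hC : 0 ≤ C) : supK K g ≤ C :=
  Real.iSup_le (fun y => h y y.2) hC

theorem supK_nonneg (g : M → ℂ) : 0 ≤ supK K g := Real.iSup_nonneg fun _ => norm_nonneg _

end Sup

namespace Per

variable {E : Type*} [NormedAddCommGroup E] [NormedSpace ℂ E]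
  {M : Type*} [TopologicalSpace M] [ChartedSpace E M] [IsManifold 𝓘(ℂ, E) 1 M]
  (P : Per E M)

theorem hγz (k : ℤ) : MDifferentiable 𝓘(ℂ, E) 𝓘(ℂ, E) (P.γ ^ k : M ≃ₜ M) := by
  induction k using Int.induction_on with
  | zero => exact mdifferentiable_id
  | succ i ih =>
    rw [zpow_add_one]
    exact ih.comp P.hγ
  | pred i ih =>
    rw [zpow_sub_one]
    exact ih.comp P.hγs

theorem f_zpow (k : ℤ) (x : M) : P.f ((P.γ ^ k) x) = P.f x + k := by
  have hs : ∀ x, P.f (P.γ.symm x) = P.f x - 1 := by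
    intro x
    have := P.hfγ (P.γ.symm x)
    rw [Homeomorph.apply_symm_apply] at this
    linarith
  induction k using Int.induction_on generalizing x with
  | zero => simp
  | succ i ih =>
    rw [zpow_add_one]
    change P.f ((P.γ ^ (i : ℤ)) (P.γ x)) = _
    rw [ih, P.hfγ]; push_cast; ring
  | pred i ih =>
    rw [zpow_sub_one]
    change P.f ((P.γ ^ (-(i : ℤ))) (P.γ.symm x)) = _
    rw [ih, hs]; push_cast; ring

theorem exists_bound : ∃ R : ℝ, 0 < R ∧ ∀ y ∈ P.K, |P.f y| ≤ R := by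
  obtain ⟨C, hC⟩ := P.cpt.exists_bound_of_continuousOn P.hf.continuousOn
  exact ⟨|C| + 1, by positivity, fun y hy => by
    have := hC y hy
    rw [Real.norm_eq_abs] at this
    exact this.trans ((le_abs_self C).trans (by linarith))⟩

omit [IsManifold 𝓘(ℂ, E) 1 M] in
theorem continuous_of_mem {h : M → ℂ} (hh : h ∈ hol E M) : Continuous h :=
  MDifferentiable.continuous hh

/-- slab norms -/
noncomputable def slab (j : ℤ) : Seminorm ℂ (hol E M) where
  toFun h := supK P.K (fun y => h.1 ((P.γ ^ j) y))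
  map_zero' := le_antisymm (supK_le (fun y _ => by simp) le_rfl) (supK_nonneg _)
  add_le' := by
    intro a b
    have ha := (continuous_of_mem a.2).comp (P.γ ^ j).continuous
    have hb := (continuous_of_mem b.2).comp (P.γ ^ j).continuous
    refine supK_le (fun y hy => ?_) (add_nonneg (supK_nonneg _) (supK_nonneg _))
    exact (norm_add_le _ _).trans (add_le_add (le_supK P.cpt ha hy) (le_supK P.cpt hb hy))
  neg' := by
    intro a
    have : (fun y => (-a).1 ((P.γ ^ j) y)) = fun y => -(a.1 ((P.γ ^ j) y)) := rfl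
    rw [this]
    simp only [supK, norm_neg]
  smul' := by
    intro c a
    have ha := (continuous_of_mem a.2).comp (P.γ ^ j).continuous
    have : (fun y => (c • a).1 ((P.γ ^ j) y)) = fun y => c • (a.1 ((P.γ ^ j) y)) := rfl
    rw [this]
    simp only [supK, norm_smul]
    rw [Real.mul_iSup_of_nonneg (norm_nonneg c)]

theorem slab_def (j : ℤ) (h : hol E M) : P.slab j h = supK P.K (fun y => h.1 ((P.γ ^ j) y)) := rfl

theorem le_slab (j : ℤ) (h : hol E M) {y : M} (hy : y ∈ P.K) : ‖h.1 ((P.γ ^ j) y)‖ ≤ P.slab j h :=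
  le_supK P.cpt ((continuous_of_mem h.2).comp (P.γ ^ j).continuous) hy

theorem slab_le (j : ℤ) (h : hol E M) {C : ℝ} (hC : ∀ y ∈ P.K, ‖h.1 ((P.γ ^ j) y)‖ ≤ C)
    (hC0 : 0 ≤ C) : P.slab j h ≤ C := supK_le hC hC0

/-- the shift -/
noncomputable def Tγ : hol E M ≃ₗ[ℂ] hol E M where
  toFun h := ⟨fun x => h.1 (P.γ x), MDifferentiable.comp h.2 P.hγ⟩
  invFun h := ⟨fun x => h.1 (P.γ.symm x), MDifferentiable.comp h.2 P.hγs⟩
  map_add' a b := rfl
  map_smul' c a := rfl
  left_inv h := by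
    apply Subtype.ext; funext x
    change h.1 (P.γ (P.γ.symm x)) = _
    rw [Homeomorph.apply_symm_apply]
  right_inv h := by
    apply Subtype.ext; funext x
    change h.1 (P.γ.symm (P.γ x)) = _
    rw [Homeomorph.symm_apply_apply]

theorem Tγ_apply (h : hol E M) (x : M) : (P.Tγ h).1 x = h.1 (P.γ x) := rfl

variable [FiniteDimensional ℂ E]

/-- the shift space of holomorphic functions -/
noncomputable def shift : Shift (hol E M) where
  T := P.Tγ
  α := P.slab
  shift := by
    intro j v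
    rw [slab_def, slab_def]
    congr 1
    funext y
    rw [Tγ_apply, ← Homeomorph.mul_apply, ← zpow_one_add, add_comm]
  sep := by
    intro v hv
    apply Subtype.ext
    funext x
    obtain ⟨k, y, hy, rfl⟩ := P.cover x
    have := P.le_slab k v hy
    rw [hv] at this
    exact norm_le_zero_iff.1 this
  montel := by
    intro u hu
    choose C hC using hu
    obtain ⟨R, hR, hRK⟩ := P.exists_bound
    have hb : ∀ x, ∃ U ∈ 𝓝 x, ∃ C : ℝ, ∀ n, ∀ y ∈ U, ‖(u n).1 y‖ ≤ C := by
      intro x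
      have hU : {y | |P.f y - P.f x| < 1} ∈ 𝓝 x := by
        have : ContinuousAt (fun y => |P.f y - P.f x|) x :=
          ((P.hf.sub continuous_const).abs).continuousAt
        apply this.eventually_lt_const
        simp
      set N : ℤ := ⌈|P.f x| + 1 + R⌉ with hN
      refine ⟨_, hU, ∑ k ∈ Finset.Icc (-N) N, |C k|, fun n y hy => ?_⟩
      obtain ⟨k, z, hz, rfl⟩ := P.cover y
      rw [mem_setOf_eq, P.f_zpow] at hy
      have hk : k ∈ Finset.Icc (-N) N := by
        rw [Finset.mem_Icc, ← abs_le]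
        have h1 : |(k : ℝ)| ≤ |P.f x| + 1 + R := by
          have h2 := hRK z hz
          have h3 : (k : ℝ) = (P.f z + k - P.f x) + P.f x - P.f z := by ring
          rw [h3]
          calc |(P.f z + k - P.f x) + P.f x - P.f z|
              ≤ |(P.f z + k - P.f x) + P.f x| + |P.f z| := abs_sub _ _
            _ ≤ |P.f z + k - P.f x| + |P.f x| + |P.f z| := by
                have := abs_add_le (P.f z + k - P.f x) (P.f x)
                linarith
            _ ≤ |P.f x| + 1 + R := by linarith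
        have h4 : |(k : ℝ)| ≤ (N : ℝ) := h1.trans (Int.le_ceil _)
        exact_mod_cast h4
      calc ‖(u n).1 ((P.γ ^ k) z)‖ ≤ P.slab k (u n) := P.le_slab k _ hz
        _ ≤ C k := hC k n
        _ ≤ |C k| := le_abs_self _
        _ ≤ _ := Finset.single_le_sum (f := fun k => |C k|) (fun _ _ => abs_nonneg _) hk
    obtain ⟨w, hw, hlim⟩ := montel_ultra (hyperfilter ℕ) (fun n => (u n).2) hb
    refine ⟨⟨w, hw⟩, hyperfilter ℕ, inferInstance, Nat.hyperfilter_le_atTop, fun j => ?_⟩
    have hKj : IsCompact ((P.γ ^ j) '' P.K) := P.cpt.image (P.γ ^ j).continuous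
    have hun := (tendstoLocallyUniformlyOn_iff_tendstoUniformlyOn_of_compact hKj).1
      (hlim.tendstoLocallyUniformlyOn (s := (P.γ ^ j) '' P.K))
    rw [Metric.tendsto_nhds]
    intro ε hε
    filter_upwards [Metric.tendstoUniformlyOn_iff.1 hun (ε / 2) (by positivity)] with n hn
    rw [Real.dist_eq, sub_zero, abs_of_nonneg (apply_nonneg _ _)]
    refine (P.slab_le j _ (C := ε / 2) (fun y hy => ?_) (by positivity)).trans_lt (by linarith)
    have h1 := hn _ (mem_image_of_mem _ hy)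
    rw [dist_comm, dist_eq_norm] at h1
    exact h1.le

/-- **Floquet solutions in a weight class** for holomorphic functions. -/
theorem exists_floquet {a b : ℝ} (hab : a ≤ b) {v : M → ℂ}
    (hv : MDifferentiable 𝓘(ℂ, E) 𝓘(ℂ, ℂ) v) (hv0 : v ≠ 0) {C : ℝ}
    (hC : ∀ x, ‖v x‖ ≤ C * Real.exp (max (a * P.f x) (b * P.f x))) :
    ∃ ν : ℂ, ν ≠ 0 ∧ a ≤ Real.log ‖ν‖ ∧ Real.log ‖ν‖ ≤ b ∧
      ∃ u : M → ℂ, MDifferentiable 𝓘(ℂ, E) 𝓘(ℂ, ℂ) u ∧ u ≠ 0 ∧ ∀ x, u (P.γ x) = ν * u x := by
  obtain ⟨R, hR, hRK⟩ := P.exists_bound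
  obtain ⟨ν, hν, h1, h2, u, hu0, hu⟩ := P.shift.exists_floquet (v := ⟨v, hv⟩)
    (C := |C| * Real.exp ((|a| + |b|) * R)) hab
    (fun h => hv0 (congrArg Subtype.val h)) (by
      intro j
      refine P.slab_le j _ (fun y hy => ?_) (by positivity)
      refine (hC _).trans ?_
      rw [P.f_zpow, mul_assoc, ← Real.exp_add]
      refine mul_le_mul (le_abs_self C) (Real.exp_le_exp.2 ?_) (Real.exp_pos _).le (abs_nonneg _)
      have h3 := hRK y hy
      have ha : a * P.f y ≤ (|a| + |b|) * R := by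
        calc a * P.f y ≤ |a * P.f y| := le_abs_self _
          _ = |a| * |P.f y| := abs_mul _ _
          _ ≤ |a| * R := mul_le_mul_of_nonneg_left h3 (abs_nonneg _)
          _ ≤ _ := by nlinarith [abs_nonneg b]
      have hb : b * P.f y ≤ (|a| + |b|) * R := by
        calc b * P.f y ≤ |b * P.f y| := le_abs_self _
          _ = |b| * |P.f y| := abs_mul _ _
          _ ≤ |b| * R := mul_le_mul_of_nonneg_left h3 (abs_nonneg _)
          _ ≤ _ := by nlinarith [abs_nonneg a]
      refine max_le ?_ ?_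
      · rw [mul_add]
        exact add_le_add ha (le_max_left _ _)
      · rw [mul_add]
        exact add_le_add hb (le_max_right _ _))
  refine ⟨ν, hν, h1, h2, u.1, u.2, fun h => hu0 (Subtype.ext h), fun x => ?_⟩
  have := congrFun (congrArg Subtype.val hu) x
  exact this

omit [FiniteDimensional ℂ E] in
/-- A holomorphic function with `γ`-invariant modulus is constant. -/
theorem const_of_norm_inv [PreconnectedSpace M] {u : M → ℂ}
    (hu : MDifferentiable 𝓘(ℂ, E) 𝓘(ℂ, ℂ) u) (huγ : ∀ x, ‖u (P.γ x)‖ = ‖u x‖) (x y : M) :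
    u x = u y := by
  have hz : ∀ (k : ℤ) (x : M), ‖u ((P.γ ^ k) x)‖ = ‖u x‖ := by
    have hs : ∀ x, ‖u (P.γ.symm x)‖ = ‖u x‖ := by
      intro x
      have := huγ (P.γ.symm x)
      rw [Homeomorph.apply_symm_apply] at this
      exact this.symm
    intro k
    induction k using Int.induction_on with
    | zero => intro x; simp
    | succ i ih =>
      intro x
      rw [zpow_add_one]
      change ‖u ((P.γ ^ (i : ℤ)) (P.γ x))‖ = _
      rw [ih, huγ]
    | pred i ih =>
      intro x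
      rw [zpow_sub_one]
      change ‖u ((P.γ ^ (-(i : ℤ))) (P.γ.symm x))‖ = _
      rw [ih, hs]
  obtain ⟨k0, y0, hy0, -⟩ := P.cover x
  obtain ⟨c, hcK, hc⟩ := P.cpt.exists_isMaxOn ⟨y0, hy0⟩ hu.continuous.norm.continuousOn
  have hmax : IsMaxOn (norm ∘ u) univ c := by
    intro z _
    obtain ⟨k, y, hy, rfl⟩ := P.cover z
    change ‖u ((P.γ ^ k) y)‖ ≤ ‖u c‖
    rw [hz]
    exact hc hy
  have h := MDifferentiableOn.eqOn_of_isPreconnected_of_isMaxOn_norm
    (I := 𝓘(ℂ, E)) hu.mdifferentiableOn isPreconnected_univ isOpen_univ (mem_univ c) hmax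
  rw [h (mem_univ x), h (mem_univ y)]
  rfl

omit [FiniteDimensional ℂ E] in
/-- Roots of modulus one are trivial. -/
theorem root_one [PreconnectedSpace M] {ν : ℂ} (hν : ‖ν‖ = 1) {u : M → ℂ}
    (hu : MDifferentiable 𝓘(ℂ, E) 𝓘(ℂ, ℂ) u) (huγ : ∀ x, u (P.γ x) = ν * u x) (x y : M) :
    u x = u y :=
  P.const_of_norm_inv hu (fun x => by rw [huγ, norm_mul, hν, one_mul]) x y

omit [FiniteDimensional ℂ E] in
theorem root_zpow {ν : ℂ} (hν : ν ≠ 0) {u : M → ℂ} (huγ : ∀ x, u (P.γ x) = ν * u x) (k : ℤ) :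
    ∀ x : M, u ((P.γ ^ k) x) = ν ^ k * u x := by
  have hs : ∀ x, u (P.γ.symm x) = ν⁻¹ * u x := by
    intro x
    have := huγ (P.γ.symm x)
    rw [Homeomorph.apply_symm_apply] at this
    rw [this, inv_mul_cancel_left₀ hν]
  induction k using Int.induction_on with
  | zero => intro x; simp
  | succ i ih =>
    intro x
    rw [zpow_add_one]
    change u ((P.γ ^ (i : ℤ)) (P.γ x)) = _
    rw [ih, huγ, zpow_add_one₀ hν, mul_assoc]
  | pred i ih =>
    intro x
    rw [zpow_sub_one]
    change u ((P.γ ^ (-(i : ℤ))) (P.γ.symm x)) = _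
    rw [ih, hs, zpow_sub_one₀ hν, mul_assoc]

end Per

end Vale.Agent.P267.H759
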