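import Vale.Agent.P267.H759.Fun

/-!
# P267 / H759: the root gap and Liouville theorems for holomorphic functions on a `ℤ`-cover

`SH f`: adding the real part of a holomorphic function germ to `f` never creates a local maximum
(strict subharmonicity for some metric).
-/

open Set Filter Topology Metric
open scoped Manifold

set_option linter.all false

namespace Vale.Agent.P267.H759

/-- `f + Re g` has no local maximum, for all holomorphic germs `g`. -/
def SH (E : Type*) {M : Type*} [NormedAddCommGroup E] [NormedSpace ℂ E] [TopologicalSpace M]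
    [ChartedSpace E M] (f : M → ℝ) : Prop :=
  ∀ (p : M) (g : M → ℂ), (∀ᶠ x in 𝓝 p, MDifferentiableAt 𝓘(ℂ, E) 𝓘(ℂ, ℂ) g x) →
    ¬ IsLocalMax (fun x => f x + (g x).re) p

namespace Per

variable {E : Type*} [NormedAddCommGroup E] [NormedSpace ℂ E]
  {M : Type*} [TopologicalSpace M] [ChartedSpace E M] [IsManifold 𝓘(ℂ, E) 1 M]
  (P : Per E M)

/-- No roots of modulus less than one. -/
theorem root_ge (hP : SH E P.f) {ν : ℂ} {u : M → ℂ}
    (hu : MDifferentiable 𝓘(ℂ, E) 𝓘(ℂ, ℂ) u) (hu0 : u ≠ 0) (huγ : ∀ x, u (P.γ x) = ν * u x) :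
    1 ≤ ‖ν‖ := by
  by_contra hcon
  push Not at hcon
  have hν : ν ≠ 0 := by
    rintro rfl
    apply hu0
    funext x
    have := huγ (P.γ.symm x)
    rw [Homeomorph.apply_symm_apply, zero_mul] at this
    exact this
  have hνn : 0 < ‖ν‖ := norm_pos_iff.2 hν
  set s : ℝ := -Real.log ‖ν‖ with hs
  have hs0 : 0 < s := by
    have := Real.log_neg hνn hcon
    linarith
  -- the invariant function
  set φ : M → ℝ := fun x => ‖u x‖ * Real.exp (s * P.f x) with hφ
  have hφc : Continuous φ :=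
    hu.continuous.norm.mul (Real.continuous_exp.comp (continuous_const.mul P.hf))
  have hφz : ∀ (k : ℤ) (x : M), φ ((P.γ ^ k) x) = φ x := by
    intro k x
    simp only [hφ]
    rw [P.root_zpow hν huγ, P.f_zpow, norm_mul, norm_zpow, mul_add, Real.exp_add]
    have h1 : ‖ν‖ ^ k * Real.exp (s * k) = 1 := by
      have h2 : Real.exp (s * k) = (‖ν‖ ^ k)⁻¹ := by
        rw [← zpow_neg, ← Real.exp_log (zpow_pos hνn (-k)), Real.log_zpow]
        congr 1
        push_cast; rw [hs]; ring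
      rw [h2, mul_inv_cancel₀ (zpow_pos hνn k).ne']
    calc ‖ν‖ ^ k * ‖u x‖ * (Real.exp (s * P.f x) * Real.exp (s * k))
        = (‖ν‖ ^ k * Real.exp (s * k)) * (‖u x‖ * Real.exp (s * P.f x)) := by ring
      _ = _ := by rw [h1, one_mul]
  obtain ⟨x0, hx0⟩ : ∃ x, u x ≠ 0 := by
    by_contra h
    push Not at h
    exact hu0 (funext h)
  obtain ⟨k0, y0, hy0, -⟩ := P.cover x0
  obtain ⟨p, hpK, hp⟩ := P.cpt.exists_isMaxOn ⟨y0, hy0⟩ hφc.continuousOn
  have hmax : ∀ x, φ x ≤ φ p := by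
    intro x
    obtain ⟨k, y, hy, rfl⟩ := P.cover x
    rw [hφz]
    exact hp hy
  have hup : u p ≠ 0 := by
    intro h
    have h1 := hmax x0
    have h2 : φ p = 0 := by simp only [hφ, h, norm_zero, zero_mul]
    have h3 : 0 < φ x0 := mul_pos (norm_pos_iff.2 hx0) (Real.exp_pos _)
    linarith
  -- local logarithm
  have hnear : ∀ᶠ x in 𝓝 p, u x / u p ∈ Complex.slitPlane := by
    have h1 : ContinuousAt (fun x => u x / u p) p := (hu.continuous.div_const _).continuousAt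
    apply h1.eventually_mem
    rw [div_self hup]
    exact Complex.isOpen_slitPlane.mem_nhds Complex.one_mem_slitPlane
  have hg : ∀ᶠ x in 𝓝 p, MDifferentiableAt 𝓘(ℂ, E) 𝓘(ℂ, ℂ)
      (fun x => ((s⁻¹ : ℝ) : ℂ) * Complex.log (u x / u p)) x := by
    filter_upwards [hnear] with x hx
    have h1 : DifferentiableAt ℂ (fun z : ℂ => ((s⁻¹ : ℝ) : ℂ) * Complex.log (z / u p)) (u x) :=
      ((differentiableAt_id.div_const _).clog hx).const_mul _
    exact h1.mdifferentiableAt.comp x (hu x)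
  apply hP p _ hg
  have hne : ∀ᶠ x in 𝓝 p, u x ≠ 0 := hu.continuous.continuousAt.eventually_ne hup
  filter_upwards [hne] with x hx
  have hval : ∀ x, u x ≠ 0 → P.f x + (((s⁻¹ : ℝ) : ℂ) * Complex.log (u x / u p)).re
      = s⁻¹ * (Real.log (φ x) - Real.log ‖u p‖) := by
    intro x hx
    rw [Complex.re_ofReal_mul, Complex.log_re, norm_div,
      Real.log_div (norm_ne_zero_iff.2 hx) (norm_ne_zero_iff.2 hup)]
    simp only [hφ]
    rw [Real.log_mul (norm_ne_zero_iff.2 hx) (Real.exp_pos _).ne', Real.log_exp]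
    field_simp
    ring
  rw [hval x hx, hval p hup]
  refine mul_le_mul_of_nonneg_left ?_ (inv_pos.2 hs0).le
  refine sub_le_sub_right (Real.log_le_log ?_ (hmax x)) _
  exact mul_pos (norm_pos_iff.2 hx) (Real.exp_pos _)

/-- Zero free roots have modulus one. -/
theorem root_zero_free (hP : SH E P.f) [Nonempty M] {ν : ℂ} {u : M → ℂ}
    (hu : MDifferentiable 𝓘(ℂ, E) 𝓘(ℂ, ℂ) u) (hu0 : ∀ x, u x ≠ 0)
    (huγ : ∀ x, u (P.γ x) = ν * u x) : ‖ν‖ = 1 := by
  obtain ⟨x0⟩ := ‹Nonempty M›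
  have h1 : 1 ≤ ‖ν‖ := P.root_ge hP hu (fun h => hu0 x0 (congrFun h x0)) huγ
  have hinv : MDifferentiable 𝓘(ℂ, E) 𝓘(ℂ, ℂ) (fun x => (u x)⁻¹) := by
    intro x
    have h2 : DifferentiableAt ℂ (fun z : ℂ => z⁻¹) (u x) := differentiableAt_inv (hu0 x)
    exact h2.mdifferentiableAt.comp x (hu x)
  have h2 : 1 ≤ ‖ν⁻¹‖ := P.root_ge hP hinv
    (fun h => inv_ne_zero (hu0 x0) (congrFun h x0)) (fun x => by
      rw [huγ, mul_inv])
  rw [norm_inv] at h2
  have h3 : ‖ν‖ ≤ 1 := by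
    have := (one_le_inv₀ (by linarith)).1 h2
    exact this
  linarith

variable [FiniteDimensional ℂ E]

omit [IsManifold 𝓘(ℂ, E) 1 M] [FiniteDimensional ℂ E] in
/-- no roots `ν` with `1 < ‖ν‖ ≤ e^d` -/
def IsGap (d : ℝ) : Prop :=
  ∀ (ν : ℂ) (u : M → ℂ), MDifferentiable 𝓘(ℂ, E) 𝓘(ℂ, ℂ) u → u ≠ 0 →
      (∀ x, u (P.γ x) = ν * u x) → 1 < ‖ν‖ → d < Real.log ‖ν‖

/-- **Root gap.** -/
theorem root_gap (hP : SH E P.f) [PreconnectedSpace M] :
    ∃ d : ℝ, 0 < d ∧ P.IsGap d := by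
  by_contra hcon
  unfold IsGap at hcon
  push Not at hcon
  have hseq : ∀ n : ℕ, ∃ (ν : ℂ) (u : M → ℂ), MDifferentiable 𝓘(ℂ, E) 𝓘(ℂ, ℂ) u ∧ u ≠ 0 ∧
      (∀ x, u (P.γ x) = ν * u x) ∧ 1 < ‖ν‖ ∧ Real.log ‖ν‖ ≤ 1 / ((n : ℝ) + 1) :=
    fun n => hcon _ (by positivity)
  choose ν u0 hu0 hu00 huγ0 hν hνl using hseq
  set D := P.shift with hD
  have hDα : ∀ j (h : hol E M), D.α j h = P.slab j h := fun _ _ => rfl
  have hνn0 : ∀ n, ν n ≠ 0 := fun n h => by
    have := hν n; rw [h, norm_zero] at this; linarith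
  -- normalisation
  have hpos : ∀ n, 0 < P.slab 0 ⟨u0 n, hu0 n⟩ := by
    intro n
    refine lt_of_le_of_ne (apply_nonneg _ _) fun h => hu00 n ?_
    have hT : D.T ⟨u0 n, hu0 n⟩ = ν n • ⟨u0 n, hu0 n⟩ := by
      apply Subtype.ext; funext x; exact huγ0 n x
    have h2 := D.sep ⟨u0 n, hu0 n⟩ fun j => by
      rw [D.eig_zpow hT (hνn0 n), hDα, ← h, mul_zero]
    exact congrArg Subtype.val h2
  set c : ℕ → ℂ := fun n => (((P.slab 0 ⟨u0 n, hu0 n⟩)⁻¹ : ℝ) : ℂ) with hc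
  set v : ℕ → hol E M := fun n => c n • ⟨u0 n, hu0 n⟩ with hv
  have hvγ : ∀ n x, (v n).1 (P.γ x) = ν n * (v n).1 x := by
    intro n x
    change c n * u0 n (P.γ x) = ν n * (c n * u0 n x)
    rw [huγ0]; ring
  have hvT : ∀ n, D.T (v n) = ν n • v n := fun n => by
    apply Subtype.ext; funext x; exact hvγ n x
  have hv0 : ∀ n, P.slab 0 (v n) = 1 := by
    intro n
    simp only [hv, hc]
    rw [map_smul_eq_mul, Complex.norm_real, Real.norm_eq_abs, abs_of_pos (inv_pos.2 (hpos n)),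
      inv_mul_cancel₀ (hpos n).ne']
  have hbd : ∀ j, ∃ C, ∀ n, D.α j (v n) ≤ C := by
    intro j
    refine ⟨Real.exp |(j : ℝ)|, fun n => ?_⟩
    rw [D.eig_zpow (hvT n) (hνn0 n), hDα, hv0, mul_one]
    have hνp : 0 < ‖ν n‖ := by linarith [hν n]
    rw [← Real.exp_log (zpow_pos hνp j), Real.log_zpow]
    apply Real.exp_le_exp.2
    have h1 : 0 ≤ Real.log ‖ν n‖ := Real.log_nonneg (hν n).le
    have h2 : Real.log ‖ν n‖ ≤ 1 := (hνl n).trans (by
      rw [div_le_one (by positivity)]; linarith [Nat.cast_nonneg (α := ℝ) n])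
    calc (j : ℝ) * Real.log ‖ν n‖ ≤ |(j : ℝ)| * Real.log ‖ν n‖ :=
          mul_le_mul_of_nonneg_right (le_abs_self _) h1
      _ ≤ |(j : ℝ)| * 1 := mul_le_mul_of_nonneg_left h2 (abs_nonneg _)
      _ = _ := mul_one _
  obtain ⟨w, l, hl, hla, hw⟩ := D.montel v hbd
  -- pointwise convergence
  have hpt : ∀ x, Tendsto (fun n => (v n).1 x) l (𝓝 (w.1 x)) := by
    intro x
    obtain ⟨k, y, hy, rfl⟩ := P.cover x
    rw [tendsto_iff_norm_sub_tendsto_zero]
    refine squeeze_zero (fun _ => norm_nonneg _) (fun n => ?_) (hw k)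
    exact P.le_slab k (v n - w) hy
  have hνlim : Tendsto (fun n => ‖ν n‖) l (𝓝 1) := by
    have h1 : Tendsto (fun n : ℕ => Real.exp (1 / ((n : ℝ) + 1))) l (𝓝 1) := by
      have h2 := (tendsto_one_div_add_atTop_nhds_zero_nat (𝕜 := ℝ)).mono_left hla
      have h3 := (Real.continuous_exp.tendsto 0).comp h2
      rwa [Real.exp_zero] at h3
    refine tendsto_of_tendsto_of_tendsto_of_le_of_le tendsto_const_nhds h1
      (fun n => (hν n).le) (fun n => ?_)
    rw [← Real.exp_log (show 0 < ‖ν n‖ by linarith [hν n])]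
    exact Real.exp_le_exp.2 (hνl n)
  have hinv : ∀ x, ‖w.1 (P.γ x)‖ = ‖w.1 x‖ := by
    intro x
    have h1 : Tendsto (fun n => ‖(v n).1 (P.γ x)‖) l (𝓝 ‖w.1 (P.γ x)‖) := (hpt _).norm
    have h2 : Tendsto (fun n => ‖ν n‖ * ‖(v n).1 x‖) l (𝓝 (1 * ‖w.1 x‖)) := hνlim.mul (hpt _).norm
    rw [one_mul] at h2
    refine tendsto_nhds_unique h1 (h2.congr fun n => ?_)
    rw [hvγ, norm_mul]
  have hconst := P.const_of_norm_inv w.2 hinv
  -- the limit has norm one
  have hw1 : P.slab 0 w = 1 := by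
    have h1 := hw 0
    have h2 : Tendsto (fun n => P.slab 0 (v n)) l (𝓝 (P.slab 0 w)) := by
      rw [tendsto_iff_norm_sub_tendsto_zero]
      refine squeeze_zero (fun _ => norm_nonneg _) (fun n => ?_) h1
      rw [Real.norm_eq_abs]
      exact abs_sub_map_le_sub (P.slab 0) _ _
    simp only [hv0] at h2
    exact tendsto_nhds_unique h2 tendsto_const_nhds
  -- a base point
  obtain ⟨x0⟩ : Nonempty M := by
    by_contra hM
    rw [not_nonempty_iff] at hM
    exact hu00 0 (Subsingleton.elim _ _)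
  have hne : Nonempty M := ⟨x0⟩
  have hwn : ∀ x, ‖w.1 x‖ = 1 := by
    intro x
    have h1 : ∀ y, ‖w.1 y‖ = ‖w.1 x‖ := fun y => by rw [hconst y x]
    refine le_antisymm ?_ ?_
    · obtain ⟨k, y, hy, hyx⟩ := P.cover x
      have := P.le_slab 0 w hy
      rw [hw1, h1] at this
      exact this
    · rw [← hw1]
      exact P.slab_le 0 w (fun y _ => by rw [h1]) (norm_nonneg _)
  -- for large `n` the function `v n` has no zeros on `K`
  have hev : ∀ᶠ n in l, D.α 0 (v n - w) < 1 := (hw 0).eventually_lt_const one_pos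
  obtain ⟨n, hn⟩ := hev.exists
  have hzf : ∀ x, (v n).1 x ≠ 0 := by
    intro x
    obtain ⟨k, y, hy, rfl⟩ := P.cover x
    rw [P.root_zpow (hνn0 n) (hvγ n)]
    refine mul_ne_zero (zpow_ne_zero _ (hνn0 n)) fun h => ?_
    have h1 := P.le_slab 0 (v n - w) hy
    have h2 : (v n - w).1 ((P.γ ^ (0 : ℤ)) y) = - w.1 y := by
      change (v n).1 y - w.1 y = _
      rw [h, zero_sub]
    rw [h2, norm_neg, hwn] at h1
    exact absurd h1 (not_le.2 hn)
  have := P.root_zero_free hP (v n).2 hzf (hvγ n)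
  linarith [hν n]

variable {P} in
/-- **Liouville**, decaying inwards, slowly growing outwards. -/
theorem IsGap.liouville_pos {d : ℝ} (hgap : P.IsGap d) {v : M → ℂ}
    (hv : MDifferentiable 𝓘(ℂ, E) 𝓘(ℂ, ℂ) v) {ε C : ℝ} (hε : 0 < ε) (hεd : ε ≤ d)
    (hC : ∀ x, ‖v x‖ ≤ C * Real.exp (max (ε * P.f x) (d * P.f x))) : v = 0 := by
  by_contra hv0
  obtain ⟨ν, hν, h1, h2, u, hu, hu0, huγ⟩ := P.exists_floquet hεd hv hv0 hC
  have h3 : 1 < ‖ν‖ := by
    have : 0 < Real.log ‖ν‖ := by linarith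
    exact (Real.log_pos_iff (norm_nonneg _)).1 this
  exact absurd (hgap ν u hu hu0 huγ h3) (not_lt.2 h2)

/-- **Liouville**, decaying outwards, exponentially growing inwards. -/
theorem liouville_neg (hP : SH E P.f) {v : M → ℂ} (hv : MDifferentiable 𝓘(ℂ, E) 𝓘(ℂ, ℂ) v)
    {ε N C : ℝ} (hε : 0 < ε) (hεN : ε ≤ N)
    (hC : ∀ x, ‖v x‖ ≤ C * Real.exp (max (-N * P.f x) (-ε * P.f x))) : v = 0 := by
  by_contra hv0
  obtain ⟨ν, hν, h1, h2, u, hu, hu0, huγ⟩ := P.exists_floquet (neg_le_neg hεN) hv hv0 hC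
  have h3 := P.root_ge hP hu hu0 huγ
  have h4 := Real.log_nonneg h3
  linarith

end Per

end Vale.Agent.P267.H759
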