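import Vale.Agent.P267.H759.Gap

/-!
# P267 / H759: slowly growing holomorphic functions on a `ℤ`-cover are constant

The oscillation seminorms on the functions vanishing at a base point; `v ∘ γ = ν v + c`.
-/

open Set Filter Topology Metric
open scoped Manifold

set_option linter.all false

namespace Vale.Agent.P267.H759

section OscSet

variable {M : Type*}

/-- oscillation over a set -/
noncomputable def oscK (K : Set M) (g : M → ℂ) : ℝ := ⨆ y : K × K, ‖g y.1 - g y.2‖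

variable [TopologicalSpace M] {K : Set M}

theorem oscK_bdd (hK : IsCompact K) {g : M → ℂ} (hg : Continuous g) :
    BddAbove (range fun y : K × K => ‖g y.1 - g y.2‖) := by
  obtain ⟨C, hC⟩ := hK.exists_bound_of_continuousOn hg.continuousOn
  refine ⟨C + C, ?_⟩
  rintro _ ⟨y, rfl⟩
  exact (norm_sub_le _ _).trans (add_le_add (hC _ y.1.2) (hC _ y.2.2))

theorem le_oscK (hK : IsCompact K) {g : M → ℂ} (hg : Continuous g) {y z : M} (hy : y ∈ K)
    (hz : z ∈ K) : ‖g y - g z‖ ≤ oscK K g :=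
  le_ciSup (oscK_bdd hK hg) (⟨⟨y, hy⟩, ⟨z, hz⟩⟩ : K × K)

theorem oscK_le {g : M → ℂ} {C : ℝ} (h : ∀ y ∈ K, ∀ z ∈ K, ‖g y - g z‖ ≤ C) (hC : 0 ≤ C) :
    oscK K g ≤ C :=
  Real.iSup_le (fun y => h _ y.1.2 _ y.2.2) hC

theorem oscK_nonneg (g : M → ℂ) : 0 ≤ oscK K g := Real.iSup_nonneg fun _ => norm_nonneg _

end OscSet

/-- holomorphic functions vanishing at a base point -/
def hol0 (E : Type*) {M : Type*} [NormedAddCommGroup E] [NormedSpace ℂ E] [TopologicalSpace M]
    [ChartedSpace E M] (o : M) : Submodule ℂ (M → ℂ) where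
  carrier := {h | MDifferentiable 𝓘(ℂ, E) 𝓘(ℂ, ℂ) h ∧ h o = 0}
  zero_mem' := ⟨mdifferentiable_const, rfl⟩
  add_mem' := fun ha hb => ⟨ha.1.add hb.1, by
    rw [Pi.add_apply, ha.2, hb.2, add_zero]⟩
  smul_mem' := fun c _ ha => ⟨ha.1.const_smul c, by
    rw [Pi.smul_apply, ha.2, smul_zero]⟩

namespace Per

variable {E : Type*} [NormedAddCommGroup E] [NormedSpace ℂ E]
  {M : Type*} [TopologicalSpace M] [ChartedSpace E M] [IsManifold 𝓘(ℂ, E) 1 M]
  (P : Per E M) {o : M}

/-- oscillation seminorms -/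
noncomputable def osc (o : M) (j : ℤ) : Seminorm ℂ (hol0 E o) where
  toFun h := oscK P.K (fun y => h.1 ((P.γ ^ j) y))
  map_zero' := le_antisymm (oscK_le (fun y _ z _ => by simp) le_rfl) (oscK_nonneg _)
  add_le' := by
    intro a b
    have ha := a.2.1.continuous.comp (P.γ ^ j).continuous
    have hb := b.2.1.continuous.comp (P.γ ^ j).continuous
    refine oscK_le (fun y hy z hz => ?_) (add_nonneg (oscK_nonneg _) (oscK_nonneg _))
    have h1 : (a + b).1 ((P.γ ^ j) y) - (a + b).1 ((P.γ ^ j) z)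
        = (a.1 ((P.γ ^ j) y) - a.1 ((P.γ ^ j) z)) + (b.1 ((P.γ ^ j) y) - b.1 ((P.γ ^ j) z)) := by
      change (a.1 ((P.γ ^ j) y) + b.1 ((P.γ ^ j) y)) - (a.1 ((P.γ ^ j) z) + b.1 ((P.γ ^ j) z)) = _
      ring
    rw [h1]
    exact (norm_add_le _ _).trans (add_le_add (le_oscK P.cpt ha hy hz) (le_oscK P.cpt hb hy hz))
  neg' := by
    intro a
    have : (fun y => (-a).1 ((P.γ ^ j) y)) = fun y => -(a.1 ((P.γ ^ j) y)) := rfl
    rw [this]
    simp only [oscK]
    congr 1
    funext y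
    rw [← neg_sub', norm_neg]
  smul' := by
    intro c a
    have ha := a.2.1.continuous.comp (P.γ ^ j).continuous
    have : (fun y => (c • a).1 ((P.γ ^ j) y)) = fun y => c • (a.1 ((P.γ ^ j) y)) := rfl
    rw [this]
    simp only [oscK, ← smul_sub, norm_smul]
    rw [Real.mul_iSup_of_nonneg (norm_nonneg c)]

theorem osc_def (o : M) (j : ℤ) (h : hol0 E o) :
    P.osc o j h = oscK P.K (fun y => h.1 ((P.γ ^ j) y)) := rfl

theorem le_osc (j : ℤ) (h : hol0 E o) {y z : M} (hy : y ∈ P.K) (hz : z ∈ P.K) :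
    ‖h.1 ((P.γ ^ j) y) - h.1 ((P.γ ^ j) z)‖ ≤ P.osc o j h :=
  le_oscK P.cpt (h.2.1.continuous.comp (P.γ ^ j).continuous) hy hz

theorem osc_le (j : ℤ) (h : hol0 E o) {C : ℝ}
    (hC : ∀ y ∈ P.K, ∀ z ∈ P.K, ‖h.1 ((P.γ ^ j) y) - h.1 ((P.γ ^ j) z)‖ ≤ C)
    (hC0 : 0 ≤ C) : P.osc o j h ≤ C := oscK_le hC hC0

/-- the shift, renormalised at the base point -/
noncomputable def T0 (o : M) : hol0 E o ≃ₗ[ℂ] hol0 E o where
  toFun h := ⟨fun x => h.1 (P.γ x) - h.1 (P.γ o),
    (MDifferentiable.comp h.2.1 P.hγ).sub mdifferentiable_const, sub_self _⟩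
  invFun h := ⟨fun x => h.1 (P.γ.symm x) - h.1 (P.γ.symm o),
    (MDifferentiable.comp h.2.1 P.hγs).sub mdifferentiable_const, sub_self _⟩
  map_add' a b := by
    apply Subtype.ext; funext x
    change (a.1 (P.γ x) + b.1 (P.γ x)) - (a.1 (P.γ o) + b.1 (P.γ o))
      = (a.1 (P.γ x) - a.1 (P.γ o)) + (b.1 (P.γ x) - b.1 (P.γ o))
    ring
  map_smul' c a := by
    apply Subtype.ext; funext x
    change c * a.1 (P.γ x) - c * a.1 (P.γ o) = c * (a.1 (P.γ x) - a.1 (P.γ o))
    ring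
  left_inv h := by
    apply Subtype.ext; funext x
    change (h.1 (P.γ (P.γ.symm x)) - h.1 (P.γ o)) - (h.1 (P.γ (P.γ.symm o)) - h.1 (P.γ o)) = _
    rw [Homeomorph.apply_symm_apply, Homeomorph.apply_symm_apply, h.2.2]
    ring
  right_inv h := by
    apply Subtype.ext; funext x
    change (h.1 (P.γ.symm (P.γ x)) - h.1 (P.γ.symm o)) - (h.1 (P.γ.symm (P.γ o))
      - h.1 (P.γ.symm o)) = _
    rw [Homeomorph.symm_apply_apply, Homeomorph.symm_apply_apply, h.2.2]
    ring

variable [FiniteDimensional ℂ E]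

/-- chain estimate: values are controlled by oscillations -/
theorem chain (ho : o ∈ P.K) (hγo : P.γ o ∈ P.K) (k : ℤ) : ∃ N : ℕ, ∀ h : hol0 E o, ∀ C : ℤ → ℝ,
    (∀ j, P.osc o j h ≤ C j) → ‖h.1 ((P.γ ^ k) o)‖ ≤ ∑ j ∈ Finset.Icc (-(N : ℤ)) N, |C j| := by
  have hstep : ∀ (h : hol0 E o) (C : ℤ → ℝ), (∀ j, P.osc o j h ≤ C j) → ∀ j : ℤ,
      ‖h.1 ((P.γ ^ (j + 1)) o) - h.1 ((P.γ ^ j) o)‖ ≤ |C j| := by
    intro h C hC j
    have h1 := P.le_osc j h hγo ho
    have h2 : (P.γ ^ (j + 1)) o = (P.γ ^ j) (P.γ o) := by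
      rw [zpow_add_one]; rfl
    rw [h2]
    exact (h1.trans (hC j)).trans (le_abs_self _)
  refine ⟨k.natAbs, fun h C hC => ?_⟩
  have hs := hstep h C hC
  have main : ∀ n : ℕ, (‖h.1 ((P.γ ^ (n : ℤ)) o)‖ ≤ ∑ j ∈ Finset.Icc (-(n : ℤ)) n, |C j|) ∧
      (‖h.1 ((P.γ ^ (-(n : ℤ))) o)‖ ≤ ∑ j ∈ Finset.Icc (-(n : ℤ)) n, |C j|) := by
    have hb : ∀ n : ℕ, ‖h.1 ((P.γ ^ (n : ℤ)) o)‖ ≤ ∑ j ∈ Finset.Ico (0 : ℤ) n, |C j| := by
      intro n
      induction n with
      | zero =>
        simp only [Nat.cast_zero, zpow_zero, Finset.Ico_self, Finset.sum_empty]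
        change ‖h.1 o‖ ≤ 0
        rw [h.2.2, norm_zero]
      | succ n ih =>
        have h1 := hs n
        have h2 : Finset.Ico (0 : ℤ) ((n + 1 : ℕ) : ℤ) = insert (n : ℤ) (Finset.Ico (0 : ℤ) n) := by
          ext x; simp only [Finset.mem_Ico, Finset.mem_insert]; push_cast; omega
        rw [h2, Finset.sum_insert (by simp)]
        have h3 : h.1 ((P.γ ^ (((n + 1 : ℕ)) : ℤ)) o)
            = (h.1 ((P.γ ^ ((n : ℤ) + 1)) o) - h.1 ((P.γ ^ (n : ℤ)) o)) + h.1 ((P.γ ^ (n : ℤ)) o) := by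
          push_cast; ring
        rw [h3]
        exact (norm_add_le _ _).trans (add_le_add h1 ih)
    have hb' : ∀ n : ℕ, ‖h.1 ((P.γ ^ (-(n : ℤ))) o)‖ ≤ ∑ j ∈ Finset.Ico (-(n : ℤ)) 0, |C j| := by
      intro n
      induction n with
      | zero =>
        simp only [Nat.cast_zero, neg_zero, zpow_zero, Finset.Ico_self, Finset.sum_empty]
        change ‖h.1 o‖ ≤ 0
        rw [h.2.2, norm_zero]
      | succ n ih =>
        have h1 := hs (-((n : ℤ) + 1))
        have h2 : Finset.Ico (-((n + 1 : ℕ) : ℤ)) 0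
            = insert (-((n : ℤ) + 1)) (Finset.Ico (-(n : ℤ)) 0) := by
          ext x; simp only [Finset.mem_Ico, Finset.mem_insert]; push_cast; omega
        rw [h2, Finset.sum_insert (by simp)]
        have h4 : -((n : ℤ) + 1) + 1 = -(n : ℤ) := by ring
        rw [h4] at h1
        have h3 : h.1 ((P.γ ^ (-((n + 1 : ℕ) : ℤ))) o)
            = -(h.1 ((P.γ ^ (-(n : ℤ))) o) - h.1 ((P.γ ^ (-((n : ℤ) + 1))) o))
              + h.1 ((P.γ ^ (-(n : ℤ))) o) := by
          push_cast; ring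
        rw [h3]
        refine (norm_add_le _ _).trans (add_le_add ?_ ih)
        rw [norm_neg]; exact h1
    intro n
    refine ⟨(hb n).trans ?_, (hb' n).trans ?_⟩
    · refine Finset.sum_le_sum_of_subset_of_nonneg (fun x hx => ?_) (fun _ _ _ => abs_nonneg _)
      simp only [Finset.mem_Ico, Finset.mem_Icc] at *; omega
    · refine Finset.sum_le_sum_of_subset_of_nonneg (fun x hx => ?_) (fun _ _ _ => abs_nonneg _)
      simp only [Finset.mem_Ico, Finset.mem_Icc] at *; omega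
  rcases Int.natAbs_eq k with hk | hk
  · rw [hk]
    have := (main k.natAbs).1
    simpa using this
  · rw [hk]
    have := (main k.natAbs).2
    simpa using this

/-- the shift space of holomorphic functions modulo constants -/
noncomputable def shift0 (ho : o ∈ P.K) (hγo : P.γ o ∈ P.K) : Shift (hol0 E o) where
  T := P.T0 o
  α := P.osc o
  shift := by
    intro j v
    rw [osc_def, osc_def]
    simp only [oscK]
    congr 1
    funext y
    have h1 : ∀ y : M, (P.T0 o v).1 ((P.γ ^ j) y) = v.1 ((P.γ ^ (j + 1)) y) - v.1 (P.γ o) := by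
      intro y
      change v.1 (P.γ ((P.γ ^ j) y)) - _ = _
      rw [← Homeomorph.mul_apply, ← zpow_one_add, add_comm]
    rw [h1, h1, sub_sub_sub_cancel_right]
  sep := by
    intro v hv
    apply Subtype.ext
    funext x
    obtain ⟨k, y, hy, rfl⟩ := P.cover x
    have h1 := P.le_osc k v hy ho
    rw [hv, norm_le_zero_iff, sub_eq_zero] at h1
    rw [h1]
    obtain ⟨N, hN⟩ := P.chain ho hγo k
    have h2 := hN v (fun _ => 0) (fun j => (hv j).le)
    simp only [abs_zero, Finset.sum_const_zero] at h2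
    exact norm_le_zero_iff.1 h2
  montel := by
    intro u hu
    choose C hC using hu
    have hbd : ∀ j, ∃ B, ∀ n, P.shift.α j ⟨(u n).1, (u n).2.1⟩ ≤ B := by
      intro j
      obtain ⟨N, hN⟩ := P.chain ho hγo j
      refine ⟨|C j| + ∑ i ∈ Finset.Icc (-(N : ℤ)) N, |C i|, fun n => ?_⟩
      refine P.slab_le j _ (fun y hy => ?_) (by positivity)
      have h1 := (P.le_osc j (u n) hy ho).trans ((hC j n).trans (le_abs_self _))
      have h2 := hN (u n) C (fun j => hC j n)
      have h3 : (u n).1 ((P.γ ^ j) y) = ((u n).1 ((P.γ ^ j) y) - (u n).1 ((P.γ ^ j) o))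
          + (u n).1 ((P.γ ^ j) o) := by ring
      change ‖(u n).1 ((P.γ ^ j) y)‖ ≤ _
      rw [h3]
      exact (norm_add_le _ _).trans (add_le_add h1 h2)
    obtain ⟨w, l, hl, hla, hw⟩ := P.shift.montel (fun n => ⟨(u n).1, (u n).2.1⟩) hbd
    have hw0 : w.1 o = 0 := by
      have h1 : ∀ n, ‖w.1 o‖ ≤ P.shift.α 0 (⟨(u n).1, (u n).2.1⟩ - w) := by
        intro n
        have h2 := P.le_slab 0 ((⟨(u n).1, (u n).2.1⟩ : hol E M) - w) ho
        have h3 : ((⟨(u n).1, (u n).2.1⟩ : hol E M) - w).1 ((P.γ ^ (0 : ℤ)) o) = - w.1 o := by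
          change (u n).1 o - w.1 o = _
          rw [(u n).2.2, zero_sub]
        rw [h3, norm_neg] at h2
        exact h2
      exact norm_le_zero_iff.1 (ge_of_tendsto' (hw 0) h1)
    refine ⟨⟨w.1, w.2, hw0⟩, l, hl, hla, fun j => ?_⟩
    have h2 : Tendsto (fun n => 2 * P.shift.α j (⟨(u n).1, (u n).2.1⟩ - w)) l (𝓝 (2 * 0)) :=
      (hw j).const_mul 2
    rw [mul_zero] at h2
    refine squeeze_zero (fun _ => apply_nonneg _ _) (fun n => ?_) h2
    refine P.osc_le j _ (fun y hy z hz => ?_)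
      (mul_nonneg (by norm_num) (apply_nonneg (P.shift.α j) _))
    have hy' := P.le_slab j ((⟨(u n).1, (u n).2.1⟩ : hol E M) - w) hy
    have hz' := P.le_slab j ((⟨(u n).1, (u n).2.1⟩ : hol E M) - w) hz
    rw [two_mul]
    exact (norm_sub_le _ _).trans (add_le_add hy' hz')

/-- enlarge the compact set -/
def enlarge (o : M) : Per E M where
  γ := P.γ
  hγ := P.hγ
  hγs := P.hγs
  K := P.K ∪ {o, P.γ o}
  cpt := P.cpt.union (Set.toFinite _).isCompact
  cover := fun x => by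
    obtain ⟨k, y, hy, h⟩ := P.cover x
    exact ⟨k, y, Or.inl hy, h⟩
  f := P.f
  hf := P.hf
  hfγ := P.hfγ

omit [FiniteDimensional ℂ E] in
/-- no additive periods -/
theorem no_add (hP : SH E P.f) [Nonempty M] {u : M → ℂ} {c : ℂ}
    (hu : MDifferentiable 𝓘(ℂ, E) 𝓘(ℂ, ℂ) u) (huγ : ∀ x, u (P.γ x) = u x + c) : c = 0 := by
  by_contra hc
  obtain ⟨x0⟩ := ‹Nonempty M›
  -- multiply such that the real part is shifted by `-1`
  set g : M → ℂ := fun x => (-c⁻¹) * u x with hg
  have hgd : MDifferentiable 𝓘(ℂ, E) 𝓘(ℂ, ℂ) g := hu.const_smul (-c⁻¹)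
  have hgγ : ∀ x, g (P.γ x) = g x - 1 := by
    intro x
    simp only [hg, huγ]
    field_simp
    ring
  set φ : M → ℝ := fun x => P.f x + (g x).re with hφ
  have hφc : Continuous φ := P.hf.add (Complex.continuous_re.comp hgd.continuous)
  have hφ1 : ∀ x, φ (P.γ x) = φ x := by
    intro x
    simp only [hφ, hgγ, P.hfγ, Complex.sub_re, Complex.one_re]
    ring
  have hφs : ∀ x, φ (P.γ.symm x) = φ x := by
    intro x
    have := hφ1 (P.γ.symm x)
    rw [Homeomorph.apply_symm_apply] at this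
    exact this.symm
  have hφz : ∀ (k : ℤ) (x : M), φ ((P.γ ^ k) x) = φ x := by
    intro k
    induction k using Int.induction_on with
    | zero => intro x; rfl
    | succ i ih =>
      intro x
      rw [zpow_add_one]
      change φ ((P.γ ^ (i : ℤ)) (P.γ x)) = _
      rw [ih, hφ1]
    | pred i ih =>
      intro x
      rw [zpow_sub_one]
      change φ ((P.γ ^ (-(i : ℤ))) (P.γ.symm x)) = _
      rw [ih, hφs]
  obtain ⟨k0, y0, hy0, -⟩ := P.cover x0
  obtain ⟨p, hpK, hp⟩ := P.cpt.exists_isMaxOn ⟨y0, hy0⟩ hφc.continuousOn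
  have hmax : ∀ x, φ x ≤ φ p := by
    intro x
    obtain ⟨k, y, hy, rfl⟩ := P.cover x
    rw [hφz]
    exact hp hy
  exact hP p g (Eventually.of_forall fun x => hgd x) (Eventually.of_forall fun x => hmax x)

variable {P} in
/-- **Liouville**: holomorphic functions of small exponential growth outwards and arbitrary
exponential growth inwards are constant. -/
theorem IsGap.liouville_const {d : ℝ} (hgap : P.IsGap d) (hd : 0 < d) (hP : SH E P.f)
    [PreconnectedSpace M] {v : M → ℂ} (hv : MDifferentiable 𝓘(ℂ, E) 𝓘(ℂ, ℂ) v)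
    {N C : ℝ} (hN : 0 ≤ N) (hC : ∀ x, ‖v x‖ ≤ C * Real.exp (max (-N * P.f x) (d * P.f x))) :
    ∀ x y, v x = v y := by
  by_contra hvc
  push Not at hvc
  obtain ⟨x1, o, hx1⟩ := hvc
  have hne : Nonempty M := ⟨o⟩
  set Q := P.enlarge o with hQ
  have ho : o ∈ Q.K := Or.inr (by simp)
  have hγo : Q.γ o ∈ Q.K := Or.inr (by simp [hQ, enlarge])
  obtain ⟨R, hR, hRK⟩ := Q.exists_bound
  have hv1 : MDifferentiable 𝓘(ℂ, E) 𝓘(ℂ, ℂ) (fun x => v x - v o) := hv.sub mdifferentiable_const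
  have hQf : Q.f = P.f := rfl
  obtain ⟨ν, hν, h1, h2, u, hu0, hu⟩ := (Q.shift0 ho hγo).exists_floquet
    (v := ⟨fun x => v x - v o, hv1, sub_self _⟩) (a := -N) (b := d)
    (C := 2 * (|C| * Real.exp ((N + d) * R))) (by linarith)
    (fun h => hx1 (by
      have := congrFun (congrArg Subtype.val h) x1
      exact sub_eq_zero.1 this)) (by
      intro j
      have hbound : ∀ y ∈ Q.K, ‖v ((Q.γ ^ j) y)‖ ≤ |C| * Real.exp ((N + d) * R)
          * Real.exp (max (-N * j) (d * j)) := by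
        intro y hy
        refine (hC _).trans ?_
        rw [← hQf, Q.f_zpow, mul_assoc, ← Real.exp_add]
        refine mul_le_mul (le_abs_self C) (Real.exp_le_exp.2 ?_) (Real.exp_pos _).le (abs_nonneg _)
        have h3 := abs_le.1 (hRK y hy)
        refine max_le ?_ ?_
        · rw [mul_add]
          refine add_le_add ?_ (le_max_left _ _)
          nlinarith
        · rw [mul_add]
          refine add_le_add ?_ (le_max_right _ _)
          nlinarith
      refine Q.osc_le j _ (fun y hy z hz => ?_) (by positivity)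
      have h4 : ((⟨fun x => v x - v o, hv1, sub_self _⟩ : hol0 E o).1 ((Q.γ ^ j) y)
          - (⟨fun x => v x - v o, hv1, sub_self _⟩ : hol0 E o).1 ((Q.γ ^ j) z))
          = v ((Q.γ ^ j) y) - v ((Q.γ ^ j) z) := by
        change (v ((Q.γ ^ j) y) - v o) - (v ((Q.γ ^ j) z) - v o) = _
        ring
      rw [h4, mul_assoc, two_mul]
      exact (norm_sub_le _ _).trans (add_le_add (hbound y hy) (hbound z hz)))
  -- `u ∘ γ = ν u + c`
  set c : ℂ := u.1 (P.γ o) with hc
  have huγ : ∀ x, u.1 (P.γ x) = ν * u.1 x + c := by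
    intro x
    have h3 := congrFun (congrArg Subtype.val hu) x
    change u.1 (P.γ x) - u.1 (P.γ o) = ν * u.1 x at h3
    rw [← h3, hc]; ring
  have hu00 : ∃ x, u.1 x ≠ u.1 o := by
    by_contra hcon
    push Not at hcon
    apply hu0
    apply Subtype.ext; funext x
    rw [hcon x, u.2.2]; rfl
  obtain ⟨x2, hx2⟩ := hu00
  by_cases hν1 : ν = 1
  · rw [hν1] at huγ
    have hc0 : c = 0 := P.no_add hP u.2.1 (fun x => by rw [huγ, one_mul])
    apply hx2
    refine P.root_one (ν := 1) norm_one u.2.1 (fun x => ?_) x2 o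
    rw [huγ, hc0, add_zero]
  · -- remove the constant
    set b : ℂ := c / (1 - ν) with hb
    have h1ν : 1 - ν ≠ 0 := sub_ne_zero.2 (Ne.symm hν1)
    have hbν : ν * b + c = b := by
      rw [hb]; field_simp; ring
    have hwd : MDifferentiable 𝓘(ℂ, E) 𝓘(ℂ, ℂ) (fun x => u.1 x - b) :=
      u.2.1.sub mdifferentiable_const
    have hwγ : ∀ x, (fun x => u.1 x - b) (P.γ x) = ν * (fun x => u.1 x - b) x := by
      intro x
      simp only
      rw [huγ]
      linear_combination hbν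
    have hw0 : (fun x => u.1 x - b) ≠ 0 := by
      intro h
      apply hx2
      have h3 := congrFun h x2
      have h4 := congrFun h o
      simp only [Pi.zero_apply, sub_eq_zero] at h3 h4
      rw [h3, h4]
    have h5 := P.root_ge hP hwd hw0 hwγ
    rcases h5.eq_or_lt with h6 | h6
    · have h7 := P.root_one h6.symm hwd hwγ x2 o
      apply hx2
      simpa using h7
    · exact absurd (hgap ν _ hwd hw0 hwγ h6) (not_lt.2 h2)

end Per

end Vale.Agent.P267.H759
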